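import Vale.Agent.P159.T1.S.H831.TEn
import Vale.Agent.P159.T1.S.H85.Two

/-!
P159 T1, stage 2, row S.T: the one tip tent of `stmtST` in the form of the official rows.
-/

open scoped Real

namespace Vale.Agent.P159.T1.S.H831

open Vale.Agent.P159.T1.D Vale.Agent.P159.T1.H775
open Vale.Agent.P159.T1.H565 (Kf)

/-- the bounds of a tent at the left tip, for all faces -/
structure Tn1 (K c1 : ℝ) (n0 r : ℕ) (t : Z2 → ℝ) : Prop where
  nonneg : ∀ f, 0 ≤ t f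
  le : ∀ f, t f ≤ K
  row : ∀ f : Z2, f.2 = -1 → f.1 < 0 → t f = 0
  near : ∀ f, 2 * nm f ≤ n0 → t f = 0
  far : ∀ f, 2 * c1 * r ≤ nm f → t f = 0
  grad : ∀ f d, (1 + nm f : ℝ) * |t (stp d f) - t f| ≤ K
  lap : ∀ f, (1 + nm f : ℝ) ^ 2 * |H775.lap t f| ≤ K
  second : ∀ f d d',
    (1 + nm f : ℝ) ^ 2 * |t (stp d (stp d' f)) - t (stp d' f) - (t (stp d f) - t f)| ≤ K

theorem nm_le (f : Z2) : (nm f : ℝ) ≤ ‖zc f‖ := by
  have h1 : |(f.1 : ℝ)| ≤ ‖zc f‖ := Complex.abs_re_le_norm (zc f)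
  have h2 : |(f.2 : ℝ)| ≤ ‖zc f‖ := Complex.abs_im_le_norm (zc f)
  unfold nm
  rw [Nat.cast_max, Nat.cast_natAbs, Nat.cast_natAbs, Int.cast_abs, Int.cast_abs]
  exact max_le h1 h2

theorem sq_le_nm (f : Z2) : ‖zc f‖ ^ 2 ≤ 2 * (nm f : ℝ) ^ 2 := by
  have h0 : ‖zc f‖ ^ 2 = (f.1 : ℝ) ^ 2 + (f.2 : ℝ) ^ 2 := by
    rw [Complex.sq_norm, Complex.normSq_apply]
    simp only [zc]
    ring
  have h1 : |(f.1 : ℝ)| ≤ nm f := by
    unfold nm
    rw [Nat.cast_max, Nat.cast_natAbs, Nat.cast_natAbs, Int.cast_abs, Int.cast_abs]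
    exact le_max_left _ _
  have h2 : |(f.2 : ℝ)| ≤ nm f := by
    unfold nm
    rw [Nat.cast_max, Nat.cast_natAbs, Nat.cast_natAbs, Int.cast_abs, Int.cast_abs]
    exact le_max_right _ _
  have h3 : (f.1 : ℝ) ^ 2 ≤ (nm f : ℝ) ^ 2 := sq_le_sq' (by linarith [(abs_le.1 h1).1])
    (abs_le.1 h1).2
  have h4 : (f.2 : ℝ) ^ 2 ≤ (nm f : ℝ) ^ 2 := sq_le_sq' (by linarith [(abs_le.1 h2).1])
    (abs_le.1 h2).2
  linarith

theorem norm_stp (d : Bool) (f : Z2) : ‖zc f‖ ≤ ‖zc (stp d f)‖ + 1 := by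
  have h1 : zc f = zc (stp d f) + (if d then -Complex.I else -1) := by
    cases d <;> simp [stp, zc, Complex.ext_iff]
  have h2 : ‖(if d then -Complex.I else -1 : ℂ)‖ = 1 := by cases d <;> simp
  calc ‖zc f‖ = ‖zc (stp d f) + (if d then -Complex.I else -1)‖ := by rw [← h1]
    _ ≤ _ := norm_add_le _ _
    _ = _ := by rw [h2]

theorem norm_stp' (d : Bool) (f : Z2) : ‖zc (stp d f)‖ ≤ ‖zc f‖ + 1 := by
  have h1 : zc (stp d f) = zc f + (if d then Complex.I else 1) := by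
    cases d <;> simp [stp, zc, Complex.ext_iff]
  have h2 : ‖(if d then Complex.I else 1 : ℂ)‖ = 1 := by cases d <;> simp
  calc ‖zc (stp d f)‖ = ‖zc f + (if d then Complex.I else 1)‖ := by rw [← h1]
    _ ≤ _ := norm_add_le _ _
    _ = _ := by rw [h2]

theorem Tn1.of {V' C1 c1 : ℝ} {n0 r : ℕ} {t : Z2 → ℝ} (hC : 0 < C1) (hn : 1 ≤ n0)
    (hr : (n0 : ℝ) ≤ c1 * r) (h0 : ∀ f, 0 ≤ t f ∧ t f ≤ V')
    (hs : ∀ f, t f ≠ 0 → (n0 : ℝ) ≤ ‖zc f‖ ∧ ‖zc f‖ ≤ c1 * r)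
    (hrow : ∀ f : Z2, f.2 = -1 → f.1 < 0 → t f = 0)
    (h1 : ∀ e : Bnd, |dr t e| ≤ C1 / (‖zc e.1‖ + 1))
    (h2 : ∀ f a b : Z2, (a = (1, 0) ∨ a = (0, 1)) → (b = (1, 0) ∨ b = (0, 1)) →
      |t (f + a + b) - t (f + a) - t (f + b) + t f| ≤ C1 / (‖zc f‖ + 1) ^ 2) :
    Tn1 (max V' (8 * C1)) c1 n0 r t := by
  have hn' : (1 : ℝ) ≤ n0 := by exact_mod_cast hn
  -- second differences
  have k2 : ∀ f d d', |t (stp d (stp d' f)) - t (stp d' f) - (t (stp d f) - t f)| ≤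
      C1 / (‖zc f‖ + 1) ^ 2 := by
    intro f d d'
    have h3 := h2 f (if d' then (0, 1) else (1, 0)) (if d then (0, 1) else (1, 0))
      (by cases d' <;> simp) (by cases d <;> simp)
    have e1 : stp d (stp d' f) = f + (if d' then (0, 1) else (1, 0)) +
        (if d then (0, 1) else (1, 0)) := by
      cases d <;> cases d' <;> simp [stp, Prod.ext_iff]
    have e2 : stp d' f = f + (if d' then (0, 1) else (1, 0)) := by
      cases d' <;> simp [stp, Prod.ext_iff]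
    have e3 : stp d f = f + (if d then (0, 1) else (1, 0)) := by
      cases d <;> simp [stp, Prod.ext_iff]
    rw [e1, e2, e3]
    refine le_of_eq_of_le ?_ h3
    congr 1
    ring
  refine ⟨fun f => (h0 f).1, fun f => (h0 f).2.trans (le_max_left _ _), hrow, ?_, ?_, ?_, ?_, ?_⟩
  · intro f hf
    by_contra hne
    have h3 := (hs f hne).1
    have h4 := sq_le_nm f
    have h5 : 2 * (nm f : ℝ) ≤ n0 := by exact_mod_cast hf
    have h6 : (n0 : ℝ) ^ 2 ≤ ‖zc f‖ ^ 2 := by gcongr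
    have h7 : (0 : ℝ) ≤ nm f := Nat.cast_nonneg _
    nlinarith
  · intro f hf
    by_contra hne
    have h3 := (hs f hne).2
    have h4 := nm_le f
    linarith
  · intro f d
    have hb : ∃ e : Bnd, |dr t e| = |t (stp d f) - t f| ∧ e.1 = stp d f := by
      cases d
      · refine ⟨(stp false f, true), ?_, rfl⟩
        have : dr t (stp false f, true) = -(t (stp false f) - t f) := by
          simp [dr, lf, rt, stp]
        rw [this, abs_neg]
      · refine ⟨(stp true f, false), ?_, rfl⟩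
        have : dr t (stp true f, false) = t (stp true f) - t f := by
          simp [dr, lf, rt, stp]
        rw [this]
    obtain ⟨e, he, hf⟩ := hb
    have h3 := h1 e
    rw [he, hf] at h3
    have h4 := norm_stp d f
    have h5 := nm_le f
    have h6 : 0 ≤ ‖zc (stp d f)‖ := norm_nonneg _
    rw [le_div_iff₀ (by linarith)] at h3
    have h7 : (0 : ℝ) ≤ |t (stp d f) - t f| := abs_nonneg _
    have h8 : (1 + nm f : ℝ) * |t (stp d f) - t f| ≤
        2 * (|t (stp d f) - t f| * (‖zc (stp d f)‖ + 1)) := by nlinarith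
    refine le_trans ?_ (le_max_right _ _)
    linarith
  · intro f
    have h3 := k2 (f.1 - 1, f.2) false false
    have h4 := k2 (f.1, f.2 - 1) true true
    have e1 : stp false (f.1 - 1, f.2) = f := by simp [stp]
    have e2 : stp true (f.1, f.2 - 1) = f := by simp [stp]
    have n3 := norm_stp' false (f.1 - 1, f.2)
    have n4 := norm_stp' true (f.1, f.2 - 1)
    rw [e1] at h3 n3
    rw [e2] at h4 n4
    have h5 := nm_le f
    have p3 : 0 ≤ ‖zc (f.1 - 1, f.2)‖ := norm_nonneg _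
    have p4 : 0 ≤ ‖zc (f.1, f.2 - 1)‖ := norm_nonneg _
    rw [le_div_iff₀ (by positivity)] at h3 h4
    have hl : H775.lap t f = (t (stp false f) - t f - (t f - t (f.1 - 1, f.2))) +
        (t (stp true f) - t f - (t f - t (f.1, f.2 - 1))) := by
      simp only [H775.lap, stp, if_true, if_false, Bool.false_eq_true]
      ring
    rw [hl]
    have hnn : (0 : ℝ) ≤ nm f := Nat.cast_nonneg _
    have g3 : (1 + nm f : ℝ) ^ 2 ≤ 4 * (‖zc (f.1 - 1, f.2)‖ + 1) ^ 2 := by nlinarith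
    have g4 : (1 + nm f : ℝ) ^ 2 ≤ 4 * (‖zc (f.1, f.2 - 1)‖ + 1) ^ 2 := by nlinarith
    set A := t (stp false f) - t f - (t f - t (f.1 - 1, f.2)) with hA
    set B := t (stp true f) - t f - (t f - t (f.1, f.2 - 1)) with hB
    have a3 : |A| * (1 + nm f : ℝ) ^ 2 ≤ |A| * (4 * (‖zc (f.1 - 1, f.2)‖ + 1) ^ 2) :=
      mul_le_mul_of_nonneg_left g3 (abs_nonneg _)
    have a4 : |B| * (1 + nm f : ℝ) ^ 2 ≤ |B| * (4 * (‖zc (f.1, f.2 - 1)‖ + 1) ^ 2) :=
      mul_le_mul_of_nonneg_left g4 (abs_nonneg _)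
    have a5 : (1 + nm f : ℝ) ^ 2 * |A + B| ≤ |A| * (1 + nm f : ℝ) ^ 2 +
        |B| * (1 + nm f : ℝ) ^ 2 := by
      have := mul_le_mul_of_nonneg_left (abs_add_le A B) (sq_nonneg (1 + nm f : ℝ))
      linarith
    refine le_trans ?_ (le_max_right _ _)
    linarith
  · intro f d d'
    have h3 := k2 f d d'
    have h5 := nm_le f
    have p3 : 0 ≤ ‖zc f‖ := norm_nonneg _
    rw [le_div_iff₀ (by positivity)] at h3
    have hnn : (0 : ℝ) ≤ nm f := Nat.cast_nonneg _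
    have g3 : (1 + nm f : ℝ) ^ 2 ≤ (‖zc f‖ + 1) ^ 2 := by nlinarith
    have a3 := mul_le_mul_of_nonneg_left g3
      (abs_nonneg (t (stp d (stp d' f)) - t (stp d' f) - (t (stp d f) - t f)))
    refine le_trans ?_ (le_max_right _ _)
    linarith

/-- one tip, normalized -/
theorem stmtT0 : H85.StmtT0 := by
  intro ε c1 q hε hq h0 h8
  obtain ⟨C1, α, n2, hC1, -, h⟩ := stmtST 1 1 q ε one_pos one_pos hq hε
  refine ⟨max 1 (8 * C1), max n2 1, lt_max_of_lt_left one_pos, fun n0 hn => ?_⟩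
  obtain ⟨C, hC⟩ := h n0 ((le_max_left _ _).trans hn) 0 c1 h0 h8.le
  refine ⟨C, fun r hr => ?_⟩
  obtain ⟨t, t1, t2, t3, t4, t5, t6⟩ := hC r hr
  have k := Tn1.of hC1 ((le_max_right _ _).trans hn) hr t1
    (fun f hf => ⟨(t2 f hf).1, (t2 f hf).2.1⟩) t3 t4 t5
  refine ⟨t, ⟨k.nonneg, k.le, fun f hf => k.row f hf.1 hf.2, k.near, k.far, k.grad,
    fun f _ => k.lap f, fun f d d' _ _ _ _ => k.second f d d'⟩, fun S _ => ?_⟩
  refine le_of_eq_of_le (Finset.sum_congr rfl fun e _ => ?_) (t6 S)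
  have e1 : Bmain 1 1 0 q n0 c1 r e =
      Kf q (1 / ang q) (-(1 / (2 * Real.pi - ang q))) (clp n0 (c1 * r)) e := by
    unfold Bmain
    rw [H565.Bf_eq, H565.Bf_eq]
    simp only [one_mul, zero_div, neg_zero]
    have e2 : Kf q 0 0 (fun s => clp n0 ((r : ℝ) / 4) s - clp n0 (c1 * r) s) e = 0 := by
      unfold Kf H565.kf
      split_ifs <;> simp
    rw [e2, add_zero]
  rw [e1, div_one]

/-- **row 7: S.T** -/
theorem stmtT : StmtT := H85.stmtT_of stmtT0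

end Vale.Agent.P159.T1.S.H831
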