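import Vale.Agent.P159.T1.D.H414.PolU
import Vale.Agent.P159.T1.H775.EN

/-!
P159 T1, stage 2, row S.T: differences of functions in log-polar coordinates, with constants
which do not depend on the scale.
-/

open MeasureTheory Set Filter Topology
open scoped Real ContDiff

namespace Vale.Agent.P159.T1.S.H831

open Vale.Agent.P159.T1.D.H414

/-- the euclidean norm -/
noncomputable def nz (z : ℝ × ℝ) : ℝ := ‖cpt z‖

theorem cpt_add (z w : ℝ × ℝ) : cpt (z + w) = cpt z + cpt w := rfl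

theorem cpt_sub (z w : ℝ × ℝ) : cpt (z - w) = cpt z - cpt w := rfl

theorem nz_nonneg (z : ℝ × ℝ) : 0 ≤ nz z := norm_nonneg _

theorem nz_sq (z : ℝ × ℝ) : nz z ^ 2 = z.1 ^ 2 + z.2 ^ 2 := by
  unfold nz
  rw [norm_cpt, Real.sq_sqrt (by positivity)]

theorem abs_fst_le (z : ℝ × ℝ) : |z.1| ≤ nz z := Complex.abs_re_le_norm (cpt z)

theorem abs_snd_le (z : ℝ × ℝ) : |z.2| ≤ nz z := Complex.abs_im_le_norm (cpt z)

theorem nz_le (z : ℝ × ℝ) : nz z ≤ |z.1| + |z.2| := Complex.norm_le_abs_re_add_abs_im (cpt z)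

theorem nz_add_ge (z v : ℝ × ℝ) : nz z - nz v ≤ nz (z + v) := by
  unfold nz
  rw [cpt_add]
  have := norm_sub_le (cpt z + cpt v) (cpt v)
  rw [add_sub_cancel_right] at this
  linarith

theorem nz_smul_le {s : ℝ} (h0 : 0 ≤ s) (h1 : s ≤ 1) (v : ℝ × ℝ) : nz (s • v) ≤ nz v := by
  unfold nz
  have : cpt (s • v) = (s : ℂ) * cpt v := by
    apply Complex.ext <;> simp [cpt_re, cpt_im]
  rw [this, norm_mul, Complex.norm_real, Real.norm_of_nonneg h0]
  nlinarith [norm_nonneg (cpt v)]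

/-- the first kernel -/
noncomputable def kx (z : ℝ × ℝ) : ℝ := z.1 / (z.1 ^ 2 + z.2 ^ 2)

/-- the second kernel -/
noncomputable def ky (z : ℝ × ℝ) : ℝ := z.2 / (z.1 ^ 2 + z.2 ^ 2)

theorem kx_eq (z : ℝ × ℝ) : kx z = ((cpt z)⁻¹).re := by
  unfold kx
  rw [Complex.inv_re, Complex.normSq_apply, cpt_re, cpt_im]
  ring_nf

theorem ky_eq (z : ℝ × ℝ) : ky z = -((cpt z)⁻¹).im := by
  unfold ky
  rw [Complex.inv_im, Complex.normSq_apply, cpt_re, cpt_im]
  ring_nf

theorem inv_le {z : ℝ × ℝ} {m : ℝ} (hm : 0 < m) (hz : m ≤ nz z) : ‖(cpt z)⁻¹‖ ≤ 1 / m := by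
  rw [norm_inv, ← one_div]
  exact one_div_le_one_div_of_le hm hz

theorem abs_kx_le {z : ℝ × ℝ} {m : ℝ} (hm : 0 < m) (hz : m ≤ nz z) : |kx z| ≤ 1 / m := by
  rw [kx_eq]
  exact (Complex.abs_re_le_norm _).trans (inv_le hm hz)

theorem abs_ky_le {z : ℝ × ℝ} {m : ℝ} (hm : 0 < m) (hz : m ≤ nz z) : |ky z| ≤ 1 / m := by
  rw [ky_eq, abs_neg]
  exact (Complex.abs_im_le_norm _).trans (inv_le hm hz)

theorem inv_sub_le {z w : ℝ × ℝ} {m : ℝ} (hm : 0 < m) (hz : m ≤ nz z) (hw : m ≤ nz w) :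
    ‖(cpt z)⁻¹ - (cpt w)⁻¹‖ ≤ nz (z - w) / m ^ 2 := by
  have hz0 : cpt z ≠ 0 := norm_pos_iff.1 (lt_of_lt_of_le hm hz)
  have hw0 : cpt w ≠ 0 := norm_pos_iff.1 (lt_of_lt_of_le hm hw)
  have e : (cpt z)⁻¹ - (cpt w)⁻¹ = (cpt w - cpt z) / (cpt z * cpt w) := by field_simp
  rw [e, norm_div, norm_mul, norm_sub_rev]
  unfold nz
  rw [cpt_sub]
  refine div_le_div_of_nonneg_left (norm_nonneg _) (by positivity) ?_
  rw [sq]
  exact mul_le_mul hz hw hm.le (norm_nonneg _)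

theorem kx_sub_le {z w : ℝ × ℝ} {m : ℝ} (hm : 0 < m) (hz : m ≤ nz z) (hw : m ≤ nz w) :
    |kx z - kx w| ≤ nz (z - w) / m ^ 2 := by
  rw [kx_eq, kx_eq, ← Complex.sub_re]
  exact (Complex.abs_re_le_norm _).trans (inv_sub_le hm hz hw)

theorem ky_sub_le {z w : ℝ × ℝ} {m : ℝ} (hm : 0 < m) (hz : m ≤ nz z) (hw : m ≤ nz w) :
    |ky z - ky w| ≤ nz (z - w) / m ^ 2 := by
  have e : ky z - ky w = -((cpt z)⁻¹ - (cpt w)⁻¹).im := by
    rw [ky_eq, ky_eq, Complex.sub_im]; ring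
  rw [e, abs_neg]
  exact (Complex.abs_im_le_norm _).trans (inv_sub_le hm hz hw)

/-- mean value theorem along a segment -/
theorem mv {F : ℝ × ℝ → ℝ} (hF : Differentiable ℝ F) (z v : ℝ × ℝ) :
    ∃ s : ℝ, 0 < s ∧ s < 1 ∧ F (z + v) - F z = fderiv ℝ F (z + s • v) v := by
  have hd : ∀ s : ℝ, HasDerivAt (fun s : ℝ => F (z + s • v)) (fderiv ℝ F (z + s • v) v) s := by
    intro s
    have h1 : HasDerivAt (fun s : ℝ => z + s • v) v s := by
      have := ((hasDerivAt_id s).smul_const v).const_add z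
      simpa using this
    exact (hF _).hasFDerivAt.comp_hasDerivAt s h1
  obtain ⟨s, hs, e⟩ := exists_hasDerivAt_eq_slope (fun s : ℝ => F (z + s • v))
    (fun s => fderiv ℝ F (z + s • v) v) zero_lt_one
    (fun s _ => (hd s).continuousAt.continuousWithinAt) (fun s _ => hd s)
  refine ⟨s, hs.1, hs.2, ?_⟩
  rw [e]
  simp

theorem fderiv_split (F : ℝ × ℝ → ℝ) (z v : ℝ × ℝ) :
    fderiv ℝ F z v = v.1 * fderiv ℝ F z (1, 0) + v.2 * fderiv ℝ F z (0, 1) := by
  have e : v = v.1 • ((1, 0) : ℝ × ℝ) + v.2 • ((0, 1) : ℝ × ℝ) := by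
    ext <;> simp
  conv_lhs => rw [e]
  rw [map_add, map_smul, map_smul, smul_eq_mul, smul_eq_mul]

/-- admissible profiles: smooth, with bounds up to the second derivative -/
structure Adm (η u : ℝ → ℝ) (A B : ℝ) : Prop where
  cη : ContDiff ℝ ∞ η
  cu : ContDiff ℝ ∞ u
  sη : HasCompactSupport η
  zη : (0 : ℝ) ∉ tsupport η
  su : tsupport u ⊆ Ioo (-π) π
  η0 : ∀ t, |η t| ≤ A
  η1 : ∀ t, |deriv η t| ≤ A
  η2 : ∀ t, |deriv (deriv η) t| ≤ A
  u0 : ∀ t, |u t| ≤ B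
  u1 : ∀ t, |deriv u t| ≤ B
  u2 : ∀ t, |deriv (deriv u) t| ≤ B

/-- profiles with bounds up to the first derivative -/
structure Adm1 (η u : ℝ → ℝ) (A B : ℝ) : Prop where
  cη : ContDiff ℝ ∞ η
  cu : ContDiff ℝ ∞ u
  sη : HasCompactSupport η
  zη : (0 : ℝ) ∉ tsupport η
  su : tsupport u ⊆ Ioo (-π) π
  η0 : ∀ t, |η t| ≤ A
  η1 : ∀ t, |deriv η t| ≤ A
  u0 : ∀ t, |u t| ≤ B
  u1 : ∀ t, |deriv u t| ≤ B

variable {η u : ℝ → ℝ} {A B : ℝ}

theorem contDiff_one {f : ℝ → ℝ} (h : ContDiff ℝ ∞ f) : ContDiff ℝ 1 f := by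
  have := contDiff_infty.1 h 1
  exact_mod_cast this

theorem contDiff_deriv {f : ℝ → ℝ} (h : ContDiff ℝ ∞ f) : ContDiff ℝ ∞ (deriv f) :=
  (contDiff_infty_iff_deriv.1 h).2

theorem Adm.base (h : Adm η u A B) : Adm1 η u A B :=
  ⟨h.cη, h.cu, h.sη, h.zη, h.su, h.η0, h.η1, h.u0, h.u1⟩

theorem Adm.dη (h : Adm η u A B) : Adm1 (deriv η) u A B :=
  ⟨contDiff_deriv h.cη, h.cu, h.sη.deriv, fun hc => h.zη (tsupport_deriv_subset hc), h.su,
    h.η1, h.η2, h.u0, h.u1⟩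

theorem Adm.du (h : Adm η u A B) : Adm1 η (deriv u) A B :=
  ⟨h.cη, contDiff_deriv h.cu, h.sη, h.zη, tsupport_deriv_subset.trans h.su, h.η0, h.η1,
    h.u1, h.u2⟩

theorem Adm1.nn (h : Adm1 η u A B) : 0 ≤ A ∧ 0 ≤ B :=
  ⟨(abs_nonneg _).trans (h.η0 0), (abs_nonneg _).trans (h.u0 0)⟩

theorem Adm1.smooth (h : Adm1 η u A B) : ContDiff ℝ ∞ (pol η u) :=
  contDiff_pol h.cη h.cu h.sη h.zη h.su

theorem Adm1.diff (h : Adm1 η u A B) : Differentiable ℝ (pol η u) := by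
  have := contDiff_infty.1 h.smooth 1
  exact this.differentiable (by simp)

theorem Adm1.fst (h : Adm1 η u A B) (z : ℝ × ℝ) :
    fderiv ℝ (pol η u) z (1, 0) = pol (deriv η) u z * kx z - pol η (deriv u) z * ky z := by
  rw [fderiv_pol_fst (contDiff_one h.cη) (contDiff_one h.cu) h.sη h.zη h.su]
  unfold pol kx ky
  ring

theorem Adm1.snd (h : Adm1 η u A B) (z : ℝ × ℝ) :
    fderiv ℝ (pol η u) z (0, 1) = pol (deriv η) u z * ky z + pol η (deriv u) z * kx z := by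
  rw [fderiv_pol_snd (contDiff_one h.cη) (contDiff_one h.cu) h.sη h.zη h.su]
  unfold pol kx ky
  ring

theorem pol_le {η u : ℝ → ℝ} {A B : ℝ} (h0 : ∀ t, |η t| ≤ A) (h1 : ∀ t, |u t| ≤ B) (z : ℝ × ℝ) :
    |pol η u z| ≤ A * B := by
  unfold pol
  rw [abs_mul]
  exact mul_le_mul (h0 _) (h1 _) (abs_nonneg _) ((abs_nonneg _).trans (h0 0))

/-- bound of the derivative -/
theorem Adm1.fderiv_le (h : Adm1 η u A B) {z : ℝ × ℝ} {m : ℝ} (hm : 0 < m) (hz : m ≤ nz z)
    (v : ℝ × ℝ) : |fderiv ℝ (pol η u) z v| ≤ 2 * (A * B) * (|v.1| + |v.2|) / m := by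
  obtain ⟨hA, hB⟩ := h.nn
  have a1 := pol_le h.η1 h.u0 z
  have a2 := pol_le h.η0 h.u1 z
  have b1 := abs_kx_le hm hz
  have b2 := abs_ky_le hm hz
  have c1 : |fderiv ℝ (pol η u) z (1, 0)| ≤ 2 * (A * B) / m := by
    rw [h.fst]
    refine (abs_sub _ _).trans ?_
    rw [abs_mul, abs_mul]
    calc _ ≤ A * B * (1 / m) + A * B * (1 / m) :=
          add_le_add (mul_le_mul a1 b1 (abs_nonneg _) (by positivity))
            (mul_le_mul a2 b2 (abs_nonneg _) (by positivity))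
      _ = _ := by ring
  have c2 : |fderiv ℝ (pol η u) z (0, 1)| ≤ 2 * (A * B) / m := by
    rw [h.snd]
    refine (abs_add_le _ _).trans ?_
    rw [abs_mul, abs_mul]
    calc _ ≤ A * B * (1 / m) + A * B * (1 / m) :=
          add_le_add (mul_le_mul a1 b2 (abs_nonneg _) (by positivity))
            (mul_le_mul a2 b1 (abs_nonneg _) (by positivity))
      _ = _ := by ring
  rw [fderiv_split]
  refine (abs_add_le _ _).trans ?_
  rw [abs_mul, abs_mul]
  calc _ ≤ |v.1| * (2 * (A * B) / m) + |v.2| * (2 * (A * B) / m) :=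
        add_le_add (mul_le_mul_of_nonneg_left c1 (abs_nonneg _))
          (mul_le_mul_of_nonneg_left c2 (abs_nonneg _))
    _ = _ := by ring

/-- the segment stays away from the origin -/
theorem seg_ge {z v : ℝ × ℝ} {m s : ℝ} (h0 : 0 ≤ s) (h1 : s ≤ 1) (hz : m + nz v ≤ nz z) :
    m ≤ nz (z + s • v) := by
  have h2 := nz_add_ge z (s • v)
  have h3 := nz_smul_le h0 h1 v
  linarith

/-- first differences -/
theorem Adm1.lip (h : Adm1 η u A B) {z v : ℝ × ℝ} {m : ℝ} (hm : 0 < m) (hz : m + nz v ≤ nz z) :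
    |pol η u (z + v) - pol η u z| ≤ 2 * (A * B) * (|v.1| + |v.2|) / m := by
  obtain ⟨s, h0, h1, e⟩ := mv h.diff z v
  rw [e]
  exact h.fderiv_le hm (seg_ge h0.le h1.le hz) v

/-- the partial derivatives are Lipschitz -/
theorem Adm.fst_lip (h : Adm η u A B) {z v : ℝ × ℝ} {m : ℝ} (hm : 0 < m)
    (hz : m + nz v ≤ nz z) :
    |fderiv ℝ (pol η u) (z + v) (1, 0) - fderiv ℝ (pol η u) z (1, 0)| ≤
      6 * (A * B) * (|v.1| + |v.2|) / m ^ 2 := by
  obtain ⟨hA, hB⟩ := h.base.nn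
  have hz1 : m ≤ nz z := by linarith [nz_nonneg v]
  have hz2 : m ≤ nz (z + v) := by linarith [nz_add_ge z v]
  rw [h.base.fst, h.base.fst]
  have a1 := h.dη.lip hm hz
  have a2 := h.du.lip hm hz
  have b1 := abs_kx_le hm hz2
  have b2 := abs_ky_le hm hz2
  have c1 := pol_le h.η1 h.u0 z
  have c2 := pol_le h.η0 h.u1 z
  have d1 := kx_sub_le hm hz2 hz1
  have d2 := ky_sub_le hm hz2 hz1
  rw [add_sub_cancel_left] at d1 d2
  have hv := nz_le v
  have d1' : |kx (z + v) - kx z| ≤ (|v.1| + |v.2|) / m ^ 2 :=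
    d1.trans (div_le_div_of_nonneg_right hv (by positivity))
  have d2' : |ky (z + v) - ky z| ≤ (|v.1| + |v.2|) / m ^ 2 :=
    d2.trans (div_le_div_of_nonneg_right hv (by positivity))
  have e : pol (deriv η) u (z + v) * kx (z + v) - pol η (deriv u) (z + v) * ky (z + v) -
      (pol (deriv η) u z * kx z - pol η (deriv u) z * ky z) =
      (pol (deriv η) u (z + v) - pol (deriv η) u z) * kx (z + v) +
        pol (deriv η) u z * (kx (z + v) - kx z) -
        (pol η (deriv u) (z + v) - pol η (deriv u) z) * ky (z + v) -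
        pol η (deriv u) z * (ky (z + v) - ky z) := by ring
  rw [e]
  set w := |v.1| + |v.2| with hw
  have hw0 : 0 ≤ w := by positivity
  have f1 : |(pol (deriv η) u (z + v) - pol (deriv η) u z) * kx (z + v)| ≤
      2 * (A * B) * w / m * (1 / m) := by
    rw [abs_mul]; exact mul_le_mul a1 b1 (abs_nonneg _) (by positivity)
  have f2 : |pol (deriv η) u z * (kx (z + v) - kx z)| ≤ A * B * (w / m ^ 2) := by
    rw [abs_mul]; exact mul_le_mul c1 d1' (abs_nonneg _) (by positivity)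
  have f3 : |(pol η (deriv u) (z + v) - pol η (deriv u) z) * ky (z + v)| ≤
      2 * (A * B) * w / m * (1 / m) := by
    rw [abs_mul]; exact mul_le_mul a2 b2 (abs_nonneg _) (by positivity)
  have f4 : |pol η (deriv u) z * (ky (z + v) - ky z)| ≤ A * B * (w / m ^ 2) := by
    rw [abs_mul]; exact mul_le_mul c2 d2' (abs_nonneg _) (by positivity)
  have g1 : 2 * (A * B) * w / m * (1 / m) = 2 * (A * B) * w / m ^ 2 := by
    field_simp
  have g2 : A * B * (w / m ^ 2) = A * B * w / m ^ 2 := by ring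
  have g3 : 6 * (A * B) * w / m ^ 2 = 2 * (A * B) * w / m ^ 2 + A * B * w / m ^ 2 +
    2 * (A * B) * w / m ^ 2 + A * B * w / m ^ 2 := by ring
  rw [g1] at f1 f3
  rw [g2] at f2 f4
  rw [g3]
  rw [abs_le] at f1 f2 f3 f4 ⊢
  constructor <;> linarith [f1.1, f1.2, f2.1, f2.2, f3.1, f3.2, f4.1, f4.2]

theorem Adm.snd_lip (h : Adm η u A B) {z v : ℝ × ℝ} {m : ℝ} (hm : 0 < m)
    (hz : m + nz v ≤ nz z) :
    |fderiv ℝ (pol η u) (z + v) (0, 1) - fderiv ℝ (pol η u) z (0, 1)| ≤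
      6 * (A * B) * (|v.1| + |v.2|) / m ^ 2 := by
  obtain ⟨hA, hB⟩ := h.base.nn
  have hz1 : m ≤ nz z := by linarith [nz_nonneg v]
  have hz2 : m ≤ nz (z + v) := by linarith [nz_add_ge z v]
  rw [h.base.snd, h.base.snd]
  have a1 := h.dη.lip hm hz
  have a2 := h.du.lip hm hz
  have b1 := abs_kx_le hm hz2
  have b2 := abs_ky_le hm hz2
  have c1 := pol_le h.η1 h.u0 z
  have c2 := pol_le h.η0 h.u1 z
  have d1 := kx_sub_le hm hz2 hz1
  have d2 := ky_sub_le hm hz2 hz1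
  rw [add_sub_cancel_left] at d1 d2
  have hv := nz_le v
  have d1' : |kx (z + v) - kx z| ≤ (|v.1| + |v.2|) / m ^ 2 :=
    d1.trans (div_le_div_of_nonneg_right hv (by positivity))
  have d2' : |ky (z + v) - ky z| ≤ (|v.1| + |v.2|) / m ^ 2 :=
    d2.trans (div_le_div_of_nonneg_right hv (by positivity))
  have e : pol (deriv η) u (z + v) * ky (z + v) + pol η (deriv u) (z + v) * kx (z + v) -
      (pol (deriv η) u z * ky z + pol η (deriv u) z * kx z) =
      (pol (deriv η) u (z + v) - pol (deriv η) u z) * ky (z + v) +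
        pol (deriv η) u z * (ky (z + v) - ky z) +
        (pol η (deriv u) (z + v) - pol η (deriv u) z) * kx (z + v) +
        pol η (deriv u) z * (kx (z + v) - kx z) := by ring
  rw [e]
  set w := |v.1| + |v.2| with hw
  have hw0 : 0 ≤ w := by positivity
  have f1 : |(pol (deriv η) u (z + v) - pol (deriv η) u z) * ky (z + v)| ≤
      2 * (A * B) * w / m * (1 / m) := by
    rw [abs_mul]; exact mul_le_mul a1 b2 (abs_nonneg _) (by positivity)
  have f2 : |pol (deriv η) u z * (ky (z + v) - ky z)| ≤ A * B * (w / m ^ 2) := by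
    rw [abs_mul]; exact mul_le_mul c1 d2' (abs_nonneg _) (by positivity)
  have f3 : |(pol η (deriv u) (z + v) - pol η (deriv u) z) * kx (z + v)| ≤
      2 * (A * B) * w / m * (1 / m) := by
    rw [abs_mul]; exact mul_le_mul a2 b1 (abs_nonneg _) (by positivity)
  have f4 : |pol η (deriv u) z * (kx (z + v) - kx z)| ≤ A * B * (w / m ^ 2) := by
    rw [abs_mul]; exact mul_le_mul c2 d1' (abs_nonneg _) (by positivity)
  have g1 : 2 * (A * B) * w / m * (1 / m) = 2 * (A * B) * w / m ^ 2 := by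
    field_simp
  have g2 : A * B * (w / m ^ 2) = A * B * w / m ^ 2 := by ring
  have g3 : 6 * (A * B) * w / m ^ 2 = 2 * (A * B) * w / m ^ 2 + A * B * w / m ^ 2 +
    2 * (A * B) * w / m ^ 2 + A * B * w / m ^ 2 := by ring
  rw [g1] at f1 f3
  rw [g2] at f2 f4
  rw [g3]
  rw [abs_le] at f1 f2 f3 f4 ⊢
  constructor <;> linarith [f1.1, f1.2, f2.1, f2.2, f3.1, f3.2, f4.1, f4.2]

/-- the derivative in a direction is Lipschitz -/
theorem Adm.fderiv_lip (h : Adm η u A B) {z v : ℝ × ℝ} {m : ℝ} (hm : 0 < m)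
    (hz : m + nz v ≤ nz z) (w : ℝ × ℝ) :
    |fderiv ℝ (pol η u) (z + v) w - fderiv ℝ (pol η u) z w| ≤
      (|w.1| + |w.2|) * (6 * (A * B) * (|v.1| + |v.2|) / m ^ 2) := by
  rw [fderiv_split _ (z + v), fderiv_split _ z]
  have e : w.1 * fderiv ℝ (pol η u) (z + v) (1, 0) + w.2 * fderiv ℝ (pol η u) (z + v) (0, 1) -
      (w.1 * fderiv ℝ (pol η u) z (1, 0) + w.2 * fderiv ℝ (pol η u) z (0, 1)) =
      w.1 * (fderiv ℝ (pol η u) (z + v) (1, 0) - fderiv ℝ (pol η u) z (1, 0)) +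
        w.2 * (fderiv ℝ (pol η u) (z + v) (0, 1) - fderiv ℝ (pol η u) z (0, 1)) := by ring
  rw [e]
  refine (abs_add_le _ _).trans ?_
  rw [abs_mul, abs_mul, add_mul]
  exact add_le_add (mul_le_mul_of_nonneg_left (h.fst_lip hm hz) (abs_nonneg _))
    (mul_le_mul_of_nonneg_left (h.snd_lip hm hz) (abs_nonneg _))

/-- second differences -/
theorem Adm.second (h : Adm η u A B) {z a b : ℝ × ℝ} {m : ℝ} (hm : 0 < m)
    (hz : m + nz a + nz b ≤ nz z) :
    |pol η u (z + a + b) - pol η u (z + a) - (pol η u (z + b) - pol η u z)| ≤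
      (|b.1| + |b.2|) * (6 * (A * B) * (|a.1| + |a.2|) / m ^ 2) := by
  have hd := h.base.diff
  have hG : Differentiable ℝ fun x => pol η u (x + a) - pol η u x :=
    (hd.comp (differentiable_id.add_const a)).sub hd
  obtain ⟨s, h0, h1, e⟩ := mv hG z b
  have e1 : pol η u (z + a + b) - pol η u (z + a) - (pol η u (z + b) - pol η u z) =
      (pol η u (z + b + a) - pol η u (z + b)) - (pol η u (z + a) - pol η u z) := by
    rw [add_right_comm]; ring
  rw [e1, e]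
  have e2 : fderiv ℝ (fun x => pol η u (x + a) - pol η u x) (z + s • b) b =
      fderiv ℝ (pol η u) (z + s • b + a) b - fderiv ℝ (pol η u) (z + s • b) b := by
    have h2 : HasFDerivAt (fun x => pol η u (x + a)) (fderiv ℝ (pol η u) (z + s • b + a))
        (z + s • b) := by
      have h3 : HasFDerivAt (fun x : ℝ × ℝ => x + a) (ContinuousLinearMap.id ℝ (ℝ × ℝ))
          (z + s • b) := (hasFDerivAt_id _).add_const a
      have h4 := (hd (z + s • b + a)).hasFDerivAt.comp (z + s • b) h3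
      rw [ContinuousLinearMap.comp_id] at h4
      exact h4
    have h5 : HasFDerivAt (fun x => pol η u (x + a) - pol η u x)
        (fderiv ℝ (pol η u) (z + s • b + a) - fderiv ℝ (pol η u) (z + s • b)) (z + s • b) :=
      h2.sub (hd _).hasFDerivAt
    rw [h5.fderiv]
    rfl
  rw [e2]
  refine h.fderiv_lip hm ?_ b
  have := seg_ge (z := z) (v := b) (m := m + nz a) h0.le h1.le hz
  linarith

/-- a step compared with the derivative at a nearby point -/
theorem Adm.step (h : Adm η u A B) {z v w : ℝ × ℝ} {m : ℝ} (hm : 0 < m)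
    (hz : m + nz v + nz w ≤ nz z) :
    |pol η u (z + w + v) - pol η u (z + w) - fderiv ℝ (pol η u) z v| ≤
      (|v.1| + |v.2|) * (6 * (A * B) * (|w.1| + |w.2| + (|v.1| + |v.2|)) / m ^ 2) := by
  obtain ⟨hA, hB⟩ := h.base.nn
  obtain ⟨s, h0, h1, e⟩ := mv h.base.diff (z + w) v
  rw [e]
  have e1 : z + w + s • v = z + (w + s • v) := by rw [add_assoc]
  rw [e1]
  have hnw : nz (w + s • v) ≤ nz w + nz v := by
    have h2 : nz (w + s • v) ≤ nz w + nz (s • v) := by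
      unfold nz; rw [cpt_add]; exact norm_add_le _ _
    have h3 := nz_smul_le h0.le h1.le v
    linarith
  refine (h.fderiv_lip hm (by linarith) v).trans ?_
  refine mul_le_mul_of_nonneg_left ?_ (by positivity)
  refine div_le_div_of_nonneg_right ?_ (by positivity)
  refine mul_le_mul_of_nonneg_left ?_ (by positivity)
  have k1 : |(w + s • v).1| ≤ |w.1| + |v.1| := by
    have : (w + s • v).1 = w.1 + s * v.1 := by simp
    rw [this]
    refine (abs_add_le _ _).trans ?_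
    rw [abs_mul, abs_of_pos h0]
    nlinarith [abs_nonneg v.1]
  have k2 : |(w + s • v).2| ≤ |w.2| + |v.2| := by
    have : (w + s • v).2 = w.2 + s * v.2 := by simp
    rw [this]
    refine (abs_add_le _ _).trans ?_
    rw [abs_mul, abs_of_pos h0]
    nlinarith [abs_nonneg v.2]
  linarith

end Vale.Agent.P159.T1.S.H831
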