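import Vale.Agent.P159.T1.S.H831.PolLip

/-!
P159 T1, stage 2, row S.T: radial profile with uniform bounds; the lattice function and its
gradient across and along the bonds.
-/

open MeasureTheory Set Filter Topology
open scoped Real ContDiff

namespace Vale.Agent.P159.T1.S.H831

open Vale.Agent.P159.T1.D Vale.Agent.P159.T1.D.H414

/-- radial profile: `1` on `[α + 1, β]`, `0` off `[α, β + 1]` -/
noncomputable def xi (α β τ : ℝ) : ℝ :=
  Real.smoothTransition (τ - α) - Real.smoothTransition (τ - β)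

theorem xi_contDiff (α β : ℝ) : ContDiff ℝ ∞ (xi α β) := by
  unfold xi
  exact (Real.smoothTransition.contDiff.comp (by fun_prop)).sub
    (Real.smoothTransition.contDiff.comp (by fun_prop))

theorem xi_left {α β τ : ℝ} (h : α ≤ β) (hτ : τ ≤ α) : xi α β τ = 0 := by
  unfold xi
  rw [Real.smoothTransition.zero_of_nonpos (by linarith),
    Real.smoothTransition.zero_of_nonpos (by linarith), sub_zero]

theorem xi_right {α β τ : ℝ} (h : α ≤ β) (hτ : β + 1 ≤ τ) : xi α β τ = 0 := by
  unfold xi
  rw [Real.smoothTransition.one_of_one_le (by linarith),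
    Real.smoothTransition.one_of_one_le (by linarith), sub_self]

theorem xi_one {α β τ : ℝ} (h1 : α + 1 ≤ τ) (h2 : τ ≤ β) : xi α β τ = 1 := by
  unfold xi
  rw [Real.smoothTransition.one_of_one_le (by linarith),
    Real.smoothTransition.zero_of_nonpos (by linarith), sub_zero]

theorem xi_nonneg {α β : ℝ} (h : α ≤ β) (τ : ℝ) : 0 ≤ xi α β τ := by
  unfold xi
  exact sub_nonneg.2 (Real.smoothTransition.monotone (by linarith))

theorem xi_le_one (α β τ : ℝ) : xi α β τ ≤ 1 := by
  unfold xi
  have h1 := Real.smoothTransition.le_one (τ - α)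
  have h2 := Real.smoothTransition.nonneg (τ - β)
  linarith

theorem xi_deriv (α β τ : ℝ) : deriv (xi α β) τ =
    deriv Real.smoothTransition (τ - α) - deriv Real.smoothTransition (τ - β) := by
  have hS : Differentiable ℝ Real.smoothTransition :=
    (Real.smoothTransition.contDiff (n := 1)).differentiable (by simp)
  have h1 : ∀ c : ℝ, HasDerivAt (fun τ => Real.smoothTransition (τ - c))
      (deriv Real.smoothTransition (τ - c)) τ := by
    intro c
    have := (hS (τ - c)).hasDerivAt.comp_sub_const τ c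
    exact this
  exact ((h1 α).sub (h1 β)).deriv

theorem xi_deriv_eq (α β : ℝ) : deriv (xi α β) = fun τ =>
    deriv Real.smoothTransition (τ - α) - deriv Real.smoothTransition (τ - β) :=
  funext fun τ => xi_deriv α β τ

theorem S_smooth : ContDiff ℝ ∞ Real.smoothTransition := Real.smoothTransition.contDiff

theorem xi_deriv2 (α β τ : ℝ) : deriv (deriv (xi α β)) τ =
    deriv (deriv Real.smoothTransition) (τ - α) - deriv (deriv Real.smoothTransition) (τ - β) := by
  rw [xi_deriv_eq]
  have hS : Differentiable ℝ (deriv Real.smoothTransition) :=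
    (contDiff_one (contDiff_deriv S_smooth)).differentiable (by simp)
  have h1 : ∀ c : ℝ, HasDerivAt (fun τ => deriv Real.smoothTransition (τ - c))
      (deriv (deriv Real.smoothTransition) (τ - c)) τ := by
    intro c
    have := (hS (τ - c)).hasDerivAt.comp_sub_const τ c
    exact this
  exact ((h1 α).sub (h1 β)).deriv

theorem S_deriv_support : HasCompactSupport (deriv Real.smoothTransition) := by
  refine HasCompactSupport.of_support_subset_isCompact (isCompact_Icc (a := 0) (b := 1)) ?_
  intro x hx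
  by_contra hcon
  rw [mem_Icc, not_and_or, not_le, not_le] at hcon
  apply hx
  rcases hcon with h | h
  · have : Real.smoothTransition =ᶠ[𝓝 x] fun _ => 0 := by
      filter_upwards [Iio_mem_nhds h] with y hy
      exact Real.smoothTransition.zero_of_nonpos (le_of_lt hy)
    rw [this.deriv_eq]; simp
  · have : Real.smoothTransition =ᶠ[𝓝 x] fun _ => 1 := by
      filter_upwards [Ioi_mem_nhds h] with y hy
      exact Real.smoothTransition.one_of_one_le (le_of_lt hy)
    rw [this.deriv_eq]; simp

/-- a universal bound for the radial profiles -/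
theorem exists_A : ∃ A : ℝ, 1 ≤ A ∧ ∀ α β : ℝ, α ≤ β → (∀ τ, |xi α β τ| ≤ A) ∧
    (∀ τ, |deriv (xi α β) τ| ≤ A) ∧ (∀ τ, |deriv (deriv (xi α β)) τ| ≤ A) := by
  obtain ⟨C1, hC1⟩ := ((contDiff_deriv S_smooth).continuous).bounded_above_of_compact_support
    S_deriv_support
  obtain ⟨C2, hC2⟩ :=
    ((contDiff_deriv (contDiff_deriv S_smooth)).continuous).bounded_above_of_compact_support
      S_deriv_support.deriv
  refine ⟨max 1 (max (2 * C1) (2 * C2)), le_max_left _ _, fun α β h => ⟨fun τ => ?_, fun τ => ?_,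
    fun τ => ?_⟩⟩
  · rw [abs_of_nonneg (xi_nonneg h τ)]
    exact (xi_le_one _ _ _).trans (le_max_left _ _)
  · rw [xi_deriv]
    have h1 := hC1 (τ - α)
    have h2 := hC1 (τ - β)
    rw [Real.norm_eq_abs] at h1 h2
    refine (abs_sub _ _).trans ?_
    refine le_trans ?_ ((le_max_left (2 * C1) (2 * C2)).trans (le_max_right _ _))
    linarith
  · rw [xi_deriv2]
    have h1 := hC2 (τ - α)
    have h2 := hC2 (τ - β)
    rw [Real.norm_eq_abs] at h1 h2
    refine (abs_sub _ _).trans ?_
    refine le_trans ?_ ((le_max_right (2 * C1) (2 * C2)).trans (le_max_right _ _))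
    linarith

theorem xi_tsupport {α β : ℝ} (h : α ≤ β) : tsupport (xi α β) ⊆ Icc α (β + 1) := by
  refine closure_minimal ?_ isClosed_Icc
  intro τ hτ
  by_contra hcon
  rw [mem_Icc, not_and_or, not_le, not_le] at hcon
  apply hτ
  rcases hcon with h1 | h1
  · exact xi_left h h1.le
  · exact xi_right h h1.le

/-- bounds for a smooth angular profile -/
theorem exists_B {u : ℝ → ℝ} (hu : ContDiff ℝ ∞ u) (hs : HasCompactSupport u) :
    ∃ B : ℝ, 0 ≤ B ∧ (∀ t, |u t| ≤ B) ∧ (∀ t, |deriv u t| ≤ B) ∧ (∀ t, |deriv (deriv u) t| ≤ B) := by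
  obtain ⟨C0, hC0⟩ := hu.continuous.bounded_above_of_compact_support hs
  obtain ⟨C1, hC1⟩ := (contDiff_deriv hu).continuous.bounded_above_of_compact_support hs.deriv
  obtain ⟨C2, hC2⟩ :=
    (contDiff_deriv (contDiff_deriv hu)).continuous.bounded_above_of_compact_support hs.deriv.deriv
  refine ⟨max C0 (max C1 C2), ?_, fun t => ?_, fun t => ?_, fun t => ?_⟩
  · exact ((norm_nonneg _).trans (hC0 0)).trans (le_max_left _ _)
  · exact (hC0 t).trans (le_max_left _ _)
  · exact (hC1 t).trans ((le_max_left _ _).trans (le_max_right _ _))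
  · exact (hC2 t).trans ((le_max_right _ _).trans (le_max_right _ _))

/-- the profiles are admissible, with a constant which does not depend on the window -/
theorem adm_xi {u : ℝ → ℝ} {A B : ℝ} (hu : ContDiff ℝ ∞ u) (hs : tsupport u ⊆ Ioo (-π) π)
    (hA : ∀ α β : ℝ, α ≤ β → (∀ τ, |xi α β τ| ≤ A) ∧
      (∀ τ, |deriv (xi α β) τ| ≤ A) ∧ (∀ τ, |deriv (deriv (xi α β)) τ| ≤ A))
    (hB0 : ∀ t, |u t| ≤ B) (hB1 : ∀ t, |deriv u t| ≤ B) (hB2 : ∀ t, |deriv (deriv u) t| ≤ B)
    {α β : ℝ} (h0 : 0 < α) (h : α ≤ β) : Adm (xi α β) u A B := by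
  refine ⟨xi_contDiff α β, hu, ?_, ?_, hs, (hA α β h).1, (hA α β h).2.1, (hA α β h).2.2,
    hB0, hB1, hB2⟩
  · exact (isCompact_Icc (a := α) (b := β + 1)).of_isClosed_subset (isClosed_tsupport _)
      (xi_tsupport h)
  · intro hc
    have := xi_tsupport h hc
    linarith [this.1]

/-! ### lattice -/

open Vale.Agent.P159.T1.H775

/-- a face or a site as a point of the plane -/
noncomputable def pz (f : Z2) : ℝ × ℝ := ((f.1 : ℝ), (f.2 : ℝ))

theorem cpt_pz (f : Z2) : cpt (pz f) = zc f := rfl

theorem nz_pz (f : Z2) : nz (pz f) = ‖zc f‖ := rfl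

theorem lg_pz (f : Z2) : lg (pz f) = Real.log ‖zc f‖ := by
  rw [← nz_pz, nz, norm_cpt]; rfl

theorem ag_pz (f : Z2) : ag (pz f) = (zc f).arg := rfl

/-- the kernel of the bond -/
noncomputable def kd (e : Bnd) : ℝ := if e.2 then ky (pz e.1) else kx (pz e.1)

theorem nz_e1 : nz (1, 0) = 1 := by
  have : cpt (1, 0) = 1 := Complex.ext rfl rfl
  rw [nz, this, norm_one]

theorem nz_e2 : nz (0, 1) = 1 := by
  have : cpt (0, 1) = Complex.I := Complex.ext rfl rfl
  rw [nz, this, Complex.norm_I]

theorem nz_ne1 : nz (-1, 0) = 1 := by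
  have : cpt (-1, 0) = -1 := by apply Complex.ext <;> simp [cpt_re, cpt_im]
  rw [nz, this, norm_neg, norm_one]

theorem nz_ne2 : nz (0, -1) = 1 := by
  have : cpt (0, -1) = -Complex.I := by apply Complex.ext <;> simp [cpt_re, cpt_im]
  rw [nz, this, norm_neg, Complex.norm_I]

/-- the lattice function -/
noncomputable def lf' (η u : ℝ → ℝ) (f : Z2) : ℝ := pol η u (pz f)

variable {η u : ℝ → ℝ} {A B : ℝ}

/-- gradient across the bonds of the lattice function, where the radial profile is `1` -/
theorem dr_kd (h : Adm η u A B) {e : Bnd} {m : ℝ} (hm : 0 < m) (hz : m + 2 ≤ ‖zc e.1‖)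
    (h1 : η (Real.log ‖zc e.1‖) = 1) (h2 : deriv η (Real.log ‖zc e.1‖) = 0) :
    |dr (lf' η u) e - deriv u (zc e.1).arg * kd e| ≤ 12 * (A * B) / m ^ 2 := by
  obtain ⟨P, d⟩ := e
  simp only at hz h1 h2
  rw [← lg_pz] at h1 h2
  cases d
  · have hs := h.step (z := pz P) (v := (0, 1)) (w := (0, -1)) hm
      (by rw [nz_e2, nz_ne2, nz_pz]; linarith)
    have e1 : pz P + (0, -1) + (0, 1) = pz P := by ext <;> simp [pz]
    have e2 : pz P + (0, -1) = pz (rt (P, false)) := by
      unfold pz rt; ext <;> simp [sub_eq_add_neg]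
    have e3 : fderiv ℝ (pol η u) (pz P) (0, 1) = deriv u (zc P).arg * kd (P, false) := by
      rw [h.base.snd]
      unfold pol kd
      simp only [Bool.false_eq_true, if_false]
      rw [h1, h2, ag_pz]; ring
    rw [e1, e2, e3] at hs
    have e4 : dr (lf' η u) (P, false) = pol η u (pz P) - pol η u (pz (rt (P, false))) := rfl
    rw [e4]
    refine hs.trans (le_of_eq ?_)
    norm_num
    ring
  · have hs := h.step (z := pz P) (v := (1, 0)) (w := (-1, 0)) hm
      (by rw [nz_e1, nz_ne1, nz_pz]; linarith)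
    have e1 : pz P + (-1, 0) + (1, 0) = pz P := by ext <;> simp [pz]
    have e2 : pz P + (-1, 0) = pz (lf (P, true)) := by
      unfold pz lf; ext <;> simp [sub_eq_add_neg]
    have e3 : fderiv ℝ (pol η u) (pz P) (1, 0) = -(deriv u (zc P).arg * kd (P, true)) := by
      rw [h.base.fst]
      unfold pol kd
      simp only [if_true]
      rw [h1, h2, ag_pz]; ring
    rw [e1, e2, e3] at hs
    have e4 : dr (lf' η u) (P, true) = pol η u (pz (lf (P, true))) - pol η u (pz P) := rfl
    rw [e4]
    have e5 : pol η u (pz (lf (P, true))) - pol η u (pz P) -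
        deriv u (zc (P, true).1).arg * kd (P, true) =
        -(pol η u (pz P) - pol η u (pz (lf (P, true))) - -(deriv u (zc P).arg * kd (P, true))) := by
      simp only; ring
    rw [e5, abs_neg]
    refine hs.trans (le_of_eq ?_)
    norm_num
    ring

/-- gradient along the bonds of `log |z|` -/
theorem gs_kd {e : Bnd} {m : ℝ} (hm : 0 < m) (hz : m + 1 ≤ ‖zc e.1‖) :
    |gs tc e - kd e| ≤ 2 / m ^ 2 := by
  obtain ⟨P, d⟩ := e
  simp only at hz
  have hΓ : ∀ t : ℝ, HasDerivAt (fun t : ℝ => t) ((fun _ : ℝ => (1 : ℝ)) t) t :=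
    fun t => hasDerivAt_id t
  have hA : ∀ t : ℝ, |(fun _ : ℝ => (1 : ℝ)) t| ≤ 1 := by intro t; simp
  have hL : ∀ s t : ℝ, |(fun _ : ℝ => (1 : ℝ)) s - (fun _ : ℝ => (1 : ℝ)) t| ≤ 1 * |s - t| := by
    intro s t; simp
  have key : ∀ v : ℂ, ‖v‖ = 1 →
      |Real.log ‖zc P + v‖ - Real.log ‖zc P‖ - (v / zc P).re| ≤ 2 / m ^ 2 := by
    intro v hv
    obtain ⟨t, h0, h1, e⟩ := exists_mid hΓ (zc P) v (by rw [hv]; linarith)
    rw [e]
    have h3 : m ≤ ‖zc P + t * v‖ := by
      have h4 := norm_sub_le (zc P + t * v) (t * v)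
      rw [add_sub_cancel_right, norm_mul, Complex.norm_real, Real.norm_of_nonneg h0.le, hv] at h4
      linarith
    have h5 := hder_sub (v := v) hA hL hm h3 (show m ≤ ‖zc P‖ by linarith)
    have h6 : hder (fun _ => 1) v (zc P) = (v / zc P).re := by simp [hder]
    rw [h6] at h5
    refine h5.trans ?_
    refine div_le_div_of_nonneg_right ?_ (by positivity)
    rw [add_sub_cancel_left, norm_mul, Complex.norm_real, Real.norm_of_nonneg h0.le, hv]
    linarith
  cases d
  · have e1 : gs tc (P, false) = Real.log ‖zc P + 1‖ - Real.log ‖zc P‖ := by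
      unfold gs bs bt tc
      simp only [Bool.false_eq_true, if_false]
      rw [zc_e1]
    have e2 : kd (P, false) = ((1 : ℂ) / zc P).re := by
      unfold kd
      simp only [Bool.false_eq_true, if_false]
      rw [kx_eq, cpt_pz, one_div]
    rw [e1, e2]
    exact key 1 (by simp)
  · have e1 : gs tc (P, true) = Real.log ‖zc P + Complex.I‖ - Real.log ‖zc P‖ := by
      unfold gs bs bt tc
      simp only [if_true]
      rw [zc_e2]
    have e2 : kd (P, true) = (Complex.I / zc P).re := by
      unfold kd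
      simp only [if_true]
      rw [ky_eq, cpt_pz, div_eq_mul_inv, Complex.mul_re, Complex.I_re, Complex.I_im]
      ring
    rw [e1, e2]
    exact key Complex.I (by simp)

/-- size of the gradient along the bonds -/
theorem gs_le {e : Bnd} {m : ℝ} (hm : 0 < m) (hz : m + 1 ≤ ‖zc e.1‖) : |gs tc e| ≤ 1 / m := by
  obtain ⟨P, d⟩ := e
  simp only at hz
  have hΓ : ∀ t : ℝ, HasDerivAt (fun t : ℝ => t) ((fun _ : ℝ => (1 : ℝ)) t) t :=
    fun t => hasDerivAt_id t
  cases d
  · have e1 : gs tc (P, false) = Real.log ‖zc P + 1‖ - Real.log ‖zc P‖ := by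
      unfold gs bs bt tc
      simp only [Bool.false_eq_true, if_false]
      rw [zc_e1]
    rw [e1]
    have := inc_abs (A := 1) (v := 1) (z := zc P) (m := m) hΓ (by intro t; simp) hm
      (by rw [norm_one]; exact hz)
    simpa using this
  · have e1 : gs tc (P, true) = Real.log ‖zc P + Complex.I‖ - Real.log ‖zc P‖ := by
      unfold gs bs bt tc
      simp only [if_true]
      rw [zc_e2]
    rw [e1]
    have := inc_abs (A := 1) (v := Complex.I) (z := zc P) (m := m) hΓ (by intro t; simp) hm
      (by rw [Complex.norm_I]; exact hz)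
    simpa using this

/-- size of the gradient across the bonds -/
theorem dr_le (h : Adm η u A B) {e : Bnd} {m : ℝ} (hm : 0 < m) (hz : m + 2 ≤ ‖zc e.1‖) :
    |dr (lf' η u) e| ≤ 2 * (A * B) / m := by
  obtain ⟨P, d⟩ := e
  simp only at hz
  cases d
  · have e2 : pz P + (0, -1) = pz (rt (P, false)) := by
      unfold pz rt; ext <;> simp [sub_eq_add_neg]
    have hs := h.base.lip (z := pz P) (v := (0, -1)) hm (by rw [nz_ne2, nz_pz]; linarith)
    rw [e2] at hs
    have e4 : dr (lf' η u) (P, false) = -(pol η u (pz (rt (P, false))) - pol η u (pz P)) := by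
      have : dr (lf' η u) (P, false) = pol η u (pz P) - pol η u (pz (rt (P, false))) := rfl
      rw [this]; ring
    rw [e4, abs_neg]
    refine hs.trans (le_of_eq ?_)
    norm_num
  · have e2 : pz P + (-1, 0) = pz (lf (P, true)) := by
      unfold pz lf; ext <;> simp [sub_eq_add_neg]
    have hs := h.base.lip (z := pz P) (v := (-1, 0)) hm (by rw [nz_ne1, nz_pz]; linarith)
    rw [e2] at hs
    have e4 : dr (lf' η u) (P, true) = pol η u (pz (lf (P, true))) - pol η u (pz P) := rfl
    rw [e4]
    refine hs.trans (le_of_eq ?_)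
    norm_num

/-- second differences of the lattice function -/
theorem second_le (h : Adm η u A B) {f : Z2} {a b : Z2} (ha : a = (1, 0) ∨ a = (0, 1))
    (hb : b = (1, 0) ∨ b = (0, 1)) {m : ℝ} (hm : 0 < m) (hz : m + 2 ≤ ‖zc f‖) :
    |lf' η u (f + a + b) - lf' η u (f + a) - lf' η u (f + b) + lf' η u f| ≤
      6 * (A * B) / m ^ 2 := by
  have ea : nz (pz a) = 1 ∧ |(pz a).1| + |(pz a).2| = 1 := by
    rcases ha with rfl | rfl
    · have : pz (1, 0) = (1, 0) := by ext <;> simp [pz]
      rw [this]; exact ⟨nz_e1, by norm_num⟩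
    · have : pz (0, 1) = (0, 1) := by ext <;> simp [pz]
      rw [this]; exact ⟨nz_e2, by norm_num⟩
  have eb : nz (pz b) = 1 ∧ |(pz b).1| + |(pz b).2| = 1 := by
    rcases hb with rfl | rfl
    · have : pz (1, 0) = (1, 0) := by ext <;> simp [pz]
      rw [this]; exact ⟨nz_e1, by norm_num⟩
    · have : pz (0, 1) = (0, 1) := by ext <;> simp [pz]
      rw [this]; exact ⟨nz_e2, by norm_num⟩
  have hadd : ∀ x y : Z2, pz (x + y) = pz x + pz y := by
    intro x y; unfold pz; ext <;> simp
  have hs := h.second (z := pz f) (a := pz a) (b := pz b) hm (by rw [ea.1, eb.1, nz_pz]; linarith)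
  rw [ea.2, eb.2] at hs
  have e : lf' η u (f + a + b) - lf' η u (f + a) - lf' η u (f + b) + lf' η u f =
      pol η u (pz f + pz a + pz b) - pol η u (pz f + pz a) -
        (pol η u (pz f + pz b) - pol η u (pz f)) := by
    unfold lf'
    rw [hadd, hadd, hadd]
    ring
  rw [e]
  refine hs.trans (le_of_eq ?_)
  ring

end Vale.Agent.P159.T1.S.H831
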