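import Vale.Agent.P159.T1.S.H831.Prof
import Vale.Agent.P159.R2.H395.LogPolSum

/-!
P159 T1, stage 2, row S.T: the explicit tent `t`, whose gradient approximates the tilt field up to
energy `ε log r + C`, with difference bounds which do not depend on the window.
-/

open MeasureTheory Set Filter Topology
open scoped Real ContDiff

namespace Vale.Agent.P159.T1.S.H831

open Vale.Agent.P159.T1.D Vale.Agent.P159.T1.D.H414 Vale.Agent.P159.T1.H775

/-- the main field of one tip: slope `V'` up to the radius `c₁ r`, then `V` up to `r / 4` -/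
noncomputable def Bmain (Y V' V : ℝ) (q n0 : ℕ) (c1 : ℝ) (r : ℕ) (e : Bnd) : ℝ :=
  Bf Y V' q (clp n0 (c1 * r)) e +
    Bf Y V q (fun s => clp n0 ((r : ℝ) / 4) s - clp n0 (c1 * r) s) e

/-- S.T: the tent of one tip -/
def StmtST : Prop :=
  ∀ (Y V' : ℝ) (q : ℕ) (ε : ℝ), 0 < Y → 0 < V' → 1 ≤ q → 0 < ε →
    ∃ (C1 α : ℝ) (n2 : ℕ), 0 < C1 ∧ 0 < α ∧ ∀ n0 ≥ n2, ∀ V c1 : ℝ, 0 < c1 → c1 ≤ 1 / 8 →
      ∃ C : ℝ, ∀ r : ℕ, (n0 : ℝ) ≤ c1 * r → ∃ t : Z2 → ℝ,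
        (∀ f, 0 ≤ t f ∧ t f ≤ V') ∧
        (∀ f, t f ≠ 0 → (n0 : ℝ) ≤ ‖zc f‖ ∧ ‖zc f‖ ≤ c1 * r ∧ |(zc f).arg| ≤ π - α) ∧
        (∀ f : Z2, f.2 = -1 → f.1 < 0 → t f = 0) ∧
        (∀ e : Bnd, |dr t e| ≤ C1 / (‖zc e.1‖ + 1)) ∧
        (∀ f a b : Z2, (a = (1, 0) ∨ a = (0, 1)) → (b = (1, 0) ∨ b = (0, 1)) →
          |t (f + a + b) - t (f + a) - t (f + b) + t f| ≤ C1 / (‖zc f‖ + 1) ^ 2) ∧
        ∀ S : Finset Bnd, ∑ e ∈ S, (Bmain Y V' V q n0 c1 r e - dr t e / Y) ^ 2 ≤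
          ε * Real.log r + C

/-! ### sums -/

/-- the bonds of a box -/
noncomputable def Nb (n : ℕ) : Finset Bnd :=
  (Finset.Icc (-(n : ℤ)) n ×ˢ Finset.Icc (-(n : ℤ)) n) ×ˢ Finset.univ

theorem mem_Nb {n : ℕ} {e : Bnd} (h : ‖zc e.1‖ ≤ n) : e ∈ Nb n := by
  have h3 : |(e.1.1 : ℝ)| ≤ n := (Complex.abs_re_le_norm (zc e.1)).trans h
  have h4 : |(e.1.2 : ℝ)| ≤ n := (Complex.abs_im_le_norm (zc e.1)).trans h
  rw [abs_le] at h3 h4
  have a1 : -(n : ℤ) ≤ e.1.1 := by exact_mod_cast h3.1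
  have a2 : e.1.1 ≤ (n : ℤ) := by exact_mod_cast h3.2
  have a3 : -(n : ℤ) ≤ e.1.2 := by exact_mod_cast h4.1
  have a4 : e.1.2 ≤ (n : ℤ) := by exact_mod_cast h4.2
  simp only [Nb, Finset.mem_product, Finset.mem_Icc, Finset.mem_univ, and_true]
  exact ⟨⟨a1, a2⟩, a3, a4⟩

theorem sum_bonds_le {S : Finset Bnd} {g : Z2 → ℝ} (hg : ∀ P, 0 ≤ g P) :
    ∑ e ∈ S, g e.1 ≤ 2 * ∑ P ∈ S.image Prod.fst, g P := by
  classical
  have h1 : S ⊆ (S.image Prod.fst) ×ˢ (Finset.univ : Finset Bool) := by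
    intro e he
    rw [Finset.mem_product]
    exact ⟨Finset.mem_image_of_mem _ he, Finset.mem_univ _⟩
  refine (Finset.sum_le_sum_of_subset_of_nonneg h1 fun e _ _ => hg e.1).trans ?_
  rw [Finset.sum_product, Finset.mul_sum]
  refine le_of_eq (Finset.sum_congr rfl fun P _ => ?_)
  rw [Fintype.sum_bool]
  ring

/-- the tail of `1 / |P|³` -/
theorem sum_cube {S : Finset Bnd} (h : ∀ e ∈ S, 12 ≤ ‖zc e.1‖) :
    ∑ e ∈ S, 1 / ‖zc e.1‖ ^ 3 ≤ 32 := by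
  classical
  refine (sum_bonds_le (g := fun P => 1 / ‖zc P‖ ^ 3) fun P => by positivity).trans ?_
  have h1 : ∀ P ∈ S.image Prod.fst, 1 ≤ Vale.Agent.P159.R2.H395.mx P := by
    intro P hP
    obtain ⟨e, he, rfl⟩ := Finset.mem_image.1 hP
    have h2 := h e he
    have h3 := Vale.Agent.P159.R2.H395.norm_le_mx e.1
    have h4 : ‖zc e.1‖ = ‖Vale.Agent.P159.R2.H395.sp e.1‖ := rfl
    rw [← h4] at h3
    have h5 : (6 : ℝ) ≤ Vale.Agent.P159.R2.H395.mx e.1 := by linarith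
    have h6 : 6 ≤ Vale.Agent.P159.R2.H395.mx e.1 := by exact_mod_cast h5
    omega
  have h2 := Vale.Agent.P159.R2.H395.sum_inv_cube_le (n := 1) le_rfl h1
  have h3 : ∑ P ∈ S.image Prod.fst, 1 / ‖zc P‖ ^ 3 =
      ∑ P ∈ S.image Prod.fst, (1 : ℝ) / ‖Vale.Agent.P159.R2.H395.sp P‖ ^ 3 := rfl
  rw [h3]
  have h4 : (16 : ℝ) / ((1 : ℕ) : ℝ) = 16 := by norm_num
  rw [h4] at h2
  linarith

/-- sums of `1 / |P|²` over an annulus of bounded ratio -/
theorem sum_square {S : Finset Bnd} {n R : ℝ} (hn : 12 ≤ n) (hR : n ≤ R)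
    (h : ∀ e ∈ S, n ≤ ‖zc e.1‖ ∧ ‖zc e.1‖ ≤ R) :
    ∑ e ∈ S, 1 / ‖zc e.1‖ ^ 2 ≤ 32 * Real.log ((R + 2) / (n - 2)) + 280 := by
  classical
  refine (sum_bonds_le (g := fun P => 1 / ‖zc P‖ ^ 2) fun P => by positivity).trans ?_
  have h1 := sum_inv_sq hn hR (S.image Prod.fst) (fun P hP => by
    obtain ⟨e, he, rfl⟩ := Finset.mem_image.1 hP
    exact h e he)
  have h2 : 1400 / (n - 2) ≤ 140 := by
    rw [div_le_iff₀ (by linarith)]
    linarith
  linarith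

/-! ### bounds of the fields -/

theorem gs_clp (a A : ℝ) (e : Bnd) : |gs (fun P => clp a A (tau P)) e| ≤ |gs tc e| := by
  unfold gs
  refine (clp_lip _ _ _ _).trans (le_of_eq ?_)
  rw [tau_eq, tau_eq]

theorem gs_sub (f g : Z2 → ℝ) (e : Bnd) : gs (fun P => f P - g P) e = gs f e - gs g e := by
  unfold gs; ring

/-- bound of the coefficient -/
noncomputable def Kc (Y V : ℝ) (q : ℕ) : ℝ := |V / (Y * ang q)| + |V / (Y * (2 * π - ang q))|

theorem Kc_nonneg (Y V : ℝ) (q : ℕ) : 0 ≤ Kc Y V q := by unfold Kc; positivity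

theorem cf_le (Y V : ℝ) (q : ℕ) (e : Bnd) : |cf Y V q e| ≤ Kc Y V q := by
  unfold cf Kc
  split_ifs
  · linarith [abs_nonneg (V / (Y * (2 * π - ang q)))]
  · rw [abs_neg]
    linarith [abs_nonneg (V / (Y * ang q))]

theorem Bmain_le (Y V' V : ℝ) (q n0 : ℕ) (c1 : ℝ) (r : ℕ) (e : Bnd) :
    |Bmain Y V' V q n0 c1 r e| ≤ (Kc Y V' q + 2 * Kc Y V q) * |gs tc e| := by
  unfold Bmain Bf
  refine (abs_add_le _ _).trans ?_
  rw [abs_mul, abs_mul]
  have h1 := gs_clp n0 (c1 * r) e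
  have h2 := gs_clp n0 ((r : ℝ) / 4) e
  have h3 : |gs (fun P => clp n0 ((r : ℝ) / 4) (tau P) - clp n0 (c1 * r) (tau P)) e| ≤
      2 * |gs tc e| := by
    rw [gs_sub]
    refine (abs_sub _ _).trans ?_
    linarith
  have k1 := cf_le Y V' q e
  have k2 := cf_le Y V q e
  calc _ ≤ Kc Y V' q * |gs tc e| + Kc Y V q * (2 * |gs tc e|) :=
        add_le_add (mul_le_mul k1 h1 (abs_nonneg _) (Kc_nonneg _ _ _))
          (mul_le_mul k2 h3 (abs_nonneg _) (Kc_nonneg _ _ _))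
    _ = _ := by ring

theorem Bmain_far (Y V' V : ℝ) (q n0 : ℕ) {c1 : ℝ} {r : ℕ} (hr : 1 ≤ r) (h0 : 0 < c1)
    (h1 : c1 ≤ 1 / 8) {e : Bnd} (h : (r : ℝ) / 4 + 1 < ‖zc e.1‖) :
    Bmain Y V' V q n0 c1 r e = 0 := by
  have hr' : (1 : ℝ) ≤ r := by exact_mod_cast hr
  have a1 := gs_clp_zero (a := (n0 : ℝ)) (A := (r : ℝ) / 4) (by positivity) e h
  have a2 := gs_clp_zero (a := (n0 : ℝ)) (A := c1 * r) (by positivity) e
    (lt_of_le_of_lt (by nlinarith) h)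
  unfold Bmain Bf
  rw [gs_sub, a1, a2]
  ring

/-- where the clamps are inactive -/
theorem clp_mid {a A x : ℝ} (h1 : Real.log a ≤ x) (h2 : x ≤ Real.log A) : clp a A x = x := by
  unfold clp
  rw [min_eq_left h2, max_eq_right h1]

theorem Bmain_mid (Y V' V : ℝ) (q n0 : ℕ) {c1 : ℝ} {r : ℕ} (hn : 2 ≤ n0) (h1 : c1 ≤ 1 / 8)
    {e : Bnd} (ha : (n0 : ℝ) + 1 ≤ ‖zc e.1‖) (hb : ‖zc e.1‖ + 1 ≤ c1 * r) :
    Bmain Y V' V q n0 c1 r e = cf Y V' q e * gs tc e := by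
  have hn' : (2 : ℝ) ≤ n0 := by exact_mod_cast hn
  have hr0 : (0 : ℝ) ≤ r := Nat.cast_nonneg r
  have hnb := norm_bt e
  have hbs : zc (bs e) = zc e.1 := rfl
  have t1 : (n0 : ℝ) ≤ ‖zc (bt e)‖ ∧ ‖zc (bt e)‖ ≤ c1 * r := by
    have h3 := norm_sub_norm_le (zc (bs e)) (zc (bt e))
    have h4 := norm_sub_norm_le (zc (bt e)) (zc (bs e))
    rw [norm_sub_rev] at h3
    rw [hbs] at h3 h4
    rw [hbs] at hnb
    constructor <;> linarith
  have t2 : (n0 : ℝ) ≤ ‖zc (bs e)‖ ∧ ‖zc (bs e)‖ ≤ c1 * r := by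
    rw [hbs]; constructor <;> linarith
  have key : ∀ P : Z2, ((n0 : ℝ) ≤ ‖zc P‖ ∧ ‖zc P‖ ≤ c1 * r) →
      clp n0 (c1 * r) (tau P) = tc P ∧ clp n0 ((r : ℝ) / 4) (tau P) = tc P := by
    intro P hP
    have hpos : 0 < ‖zc P‖ := by linarith [hP.1]
    have b1 : Real.log (n0 : ℝ) ≤ tau P := by
      rw [tau_eq]; exact Real.log_le_log (by linarith) hP.1
    have b2 : tau P ≤ Real.log (c1 * r) := by
      rw [tau_eq]; exact Real.log_le_log hpos hP.2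
    have b3 : tau P ≤ Real.log ((r : ℝ) / 4) := by
      rw [tau_eq]
      exact Real.log_le_log hpos (hP.2.trans (by nlinarith))
    rw [clp_mid b1 b2, clp_mid b1 b3, tau_eq]
    exact ⟨rfl, rfl⟩
  have k1 := key (bt e) t1
  have k2 := key (bs e) t2
  unfold Bmain Bf gs
  beta_reduce
  rw [k1.1, k1.2, k2.1, k2.2]
  ring

/-! ### the coefficient and the slope of the tent -/

section Coef

variable {d h ρ : ℝ}

/-- the coefficient in terms of `h = V' / Y` -/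
theorem cf_A (Y V' : ℝ) {q : ℕ} {e : Bnd} (hp : pA q e) : cf Y V' q e = V' / Y / ang q := by
  unfold pA at hp
  unfold cf
  rw [if_pos hp, div_div]

theorem cf_B (Y V' : ℝ) {q : ℕ} {e : Bnd} (hp : ¬ pA q e) :
    cf Y V' q e = -(V' / Y / (2 * π - ang q)) := by
  unfold pA at hp
  unfold cf
  rw [if_neg hp, div_div]

theorem cf_sub_le {Y V' : ℝ} {q : ℕ} (hq : 1 ≤ q) (hY : 0 < Y) (hV : 0 < V') (e : Bnd) (θ : ℝ) :
    |cf Y V' q e - deriv (tent (ang q) (V' / Y) ρ) θ| ≤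
      V' / Y / ang q + V' / Y / (2 * π - ang q) := by
  obtain ⟨ha0, ha1⟩ := ang_le q hq
  have hπ := Real.pi_pos
  have hdd : 0 < 2 * π - ang q := by linarith
  set h := V' / Y with hh
  have hh0 : 0 < h := div_pos hV hY
  have p1 : 0 < h / ang q := div_pos hh0 ha0
  have p2 : 0 < h / (2 * π - ang q) := div_pos hh0 hdd
  have b1 := bmp_nonneg ρ ((θ + π) / ang q)
  have b2 := bmp_le_one ρ ((θ + π) / ang q)
  have b3 := bmp_nonneg ρ ((θ + π - ang q) / (2 * π - ang q))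
  have b4 := bmp_le_one ρ ((θ + π - ang q) / (2 * π - ang q))
  have h1 : deriv (tent (ang q) h ρ) θ = bmp ρ ((θ + π) / ang q) * (h / ang q) -
      bmp ρ ((θ + π - ang q) / (2 * π - ang q)) * (h / (2 * π - ang q)) := by
    rw [tent_deriv]; ring
  rw [h1, abs_le]
  by_cases hp : pA q e
  · rw [cf_A Y V' hp]
    constructor <;> nlinarith
  · rw [cf_B Y V' hp]
    constructor <;> nlinarith

/-- far from the tip the coefficient is the slope of the tent, except at the bad angles -/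
theorem cf_good {Y V' : ℝ} {q : ℕ} (hq : 1 ≤ q) (hρ : 0 < ρ) (e : Bnd)
    (h1 : 4 / ‖zc e.1‖ ≤ 2 * ρ * (2 * π - ang q)) (h2 : 4 / ‖zc e.1‖ ≤ 2 * ρ * ang q)
    (h12 : 12 ≤ ‖zc e.1‖) (hW : (zc e.1).arg ∉ Wb (ang q) ρ) :
    cf Y V' q e = deriv (tent (ang q) (V' / Y) ρ) (zc e.1).arg := by
  obtain ⟨ha0, ha1⟩ := ang_le q hq
  have hπ := Real.pi_pos
  have hdd : 0 < 2 * π - ang q := by linarith
  have hW' := hW
  simp only [Wb, mem_union, mem_Icc, not_or, not_and, not_le] at hW'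
  obtain ⟨w1, w2, w3⟩ := hW'
  have hlo := Complex.neg_pi_lt_arg (zc e.1)
  have hhi := Complex.arg_le_pi (zc e.1)
  have hI : (zc e.1).arg ∈ Ioo (-π) π := by
    refine ⟨hlo, lt_of_le_of_ne hhi fun hc => ?_⟩
    have h3 : π - 2 * ρ * (2 * π - ang q) ≤ (zc e.1).arg := by
      rw [hc]; nlinarith [mul_pos hρ hdd]
    have h4 := w3 h3
    rw [hc] at h4
    exact lt_irrefl _ h4
  rw [tent_good ha0 (by linarith) hρ hI hW, slp]
  by_cases hp : pA q e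
  · rw [cf_A Y V' hp]
    obtain ⟨g1, g2, g3⟩ := pA_imp hq hp
    have h5 := arg_A hq g1 g2 g3
    have h6 : (zc e.1).arg < -π + ang q := by
      by_contra hcon
      push Not at hcon
      have h7 := w2 (by nlinarith [mul_pos hρ ha0])
      linarith
    rw [if_pos h6]
  · rw [cf_B Y V' hp]
    rcases not_pA_imp hq hp with h5 | ⟨-, h6, h7⟩
    · have h8 := arg_B hq h5
      rw [if_neg (not_lt.2 h8)]
    · exfalso
      -- a vertical bond below the slit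
      have a1 : ((e.1).1 : ℝ) < 0 := by exact_mod_cast h7
      have a2 : ((e.1).2 : ℝ) = -1 := by exact_mod_cast h6
      have h9 := arg_third (z := zc e.1) a1 (by simp only [zc]; rw [a2]; norm_num)
      have h10 : ‖zc e.1‖ ≤ |((e.1).1 : ℝ)| + |((e.1).2 : ℝ)| :=
        Complex.norm_le_abs_re_add_abs_im (zc e.1)
      rw [a2, abs_of_neg a1] at h10
      have h11 : |(-1 : ℝ)| = 1 := by norm_num
      rw [h11] at h10
      have h13 : (zc e.1).im / (zc e.1).re = 1 / (-((e.1).1 : ℝ)) := by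
        simp only [zc]
        rw [a2]
        rw [div_neg, neg_div]
      have h14 : Real.arctan ((zc e.1).im / (zc e.1).re) ≤ 1 / (-((e.1).1 : ℝ)) := by
        rw [h13]
        have h15 := arctan_add_le (x := 0) (δ := 1 / (-((e.1).1 : ℝ)))
          (div_nonneg zero_le_one (by linarith))
        rw [Real.arctan_zero, zero_add] at h15
        exact h15
      have h16 : 1 / (-((e.1).1 : ℝ)) ≤ 4 / ‖zc e.1‖ := by
        rw [div_le_div_iff₀ (by linarith) (by linarith)]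
        linarith
      have h17 := w1 hlo.le
      linarith

end Coef

/-- the tent vanishes near the slit -/
theorem tent_zero {d h ρ : ℝ} (hd : 0 < d) (hd2 : d < 2 * π) (hρ : 0 < ρ) (hρ1 : ρ ≤ 1 / 4)
    {θ : ℝ} (hθ : tent d h ρ θ ≠ 0) : |θ| ≤ π - min (ρ * d) (ρ * (2 * π - d)) := by
  have h1 : -π + ρ * d < θ := by
    by_contra hcon
    push Not at hcon
    exact hθ (tent_left hd hd2 hρ hρ1 hcon)
  have h2 : θ < π - ρ * (2 * π - d) := by
    by_contra hcon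
    push Not at hcon
    exact hθ (tent_right hd hd2 hρ hcon hρ1)
  have h3 := min_le_left (ρ * d) (ρ * (2 * π - d))
  have h4 := min_le_right (ρ * d) (ρ * (2 * π - d))
  rw [abs_le]
  constructor <;> linarith

/-- elementary inequality -/
theorem sq_bound {a c p g k D B K0 E m : ℝ} (ha : a = c * g - D) (hk : |g - k| ≤ 2 / m ^ 2)
    (hD : |D - p * k| ≤ E / m ^ 2) (hp : |p| ≤ B) (hc : |c - p| ≤ K0) (hm : 0 < m)
    (hB : 0 ≤ B) (hE : 0 ≤ E) :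
    a ^ 2 ≤ 2 * K0 ^ 2 * g ^ 2 + 2 * (2 * B + E) ^ 2 / m ^ 4 := by
  have e : a = (c - p) * g + (p * (g - k) - (D - p * k)) := by rw [ha]; ring
  have h1 : |p * (g - k) - (D - p * k)| ≤ (2 * B + E) / m ^ 2 := by
    refine (abs_sub _ _).trans ?_
    rw [abs_mul]
    calc _ ≤ B * (2 / m ^ 2) + E / m ^ 2 :=
          add_le_add (mul_le_mul hp hk (abs_nonneg _) hB) hD
      _ = _ := by ring
  have h2 : (p * (g - k) - (D - p * k)) ^ 2 ≤ ((2 * B + E) / m ^ 2) ^ 2 := by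
    rw [← sq_abs]
    exact pow_le_pow_left₀ (abs_nonneg _) h1 2
  have h3 : ((c - p) * g) ^ 2 ≤ K0 ^ 2 * g ^ 2 := by
    rw [mul_pow, ← sq_abs (c - p)]
    exact mul_le_mul_of_nonneg_right (pow_le_pow_left₀ (abs_nonneg _) hc 2) (sq_nonneg _)
  have h4 : ((2 * B + E) / m ^ 2) ^ 2 = (2 * B + E) ^ 2 / m ^ 4 := by
    rw [div_pow]; congr 1; ring
  rw [h4] at h2
  have h5 : 2 * (2 * B + E) ^ 2 / m ^ 4 = 2 * ((2 * B + E) ^ 2 / m ^ 4) := by ring
  rw [e, h5]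
  nlinarith [sq_nonneg ((c - p) * g - (p * (g - k) - (D - p * k)))]

theorem pow_four_le {x : ℝ} (hx : 12 ≤ x) : 1 / (x - 2) ^ 4 ≤ 8 / x ^ 3 := by
  have h1 : x / 2 ≤ x - 2 := by linarith
  have h2 : (x / 2) ^ 3 ≤ (x - 2) ^ 3 := pow_le_pow_left₀ (by linarith) h1 3
  have h3 : (x - 2) ^ 3 ≤ (x - 2) ^ 4 := pow_le_pow_right₀ (by linarith) (by norm_num)
  rw [div_le_div_iff₀ (pow_pos (by linarith) 4) (by positivity)]
  have h4 : x ^ 3 = 8 * (x / 2) ^ 3 := by ring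
  rw [h4]
  linarith

end Vale.Agent.P159.T1.S.H831
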