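import Vale.Agent.P159.T1.S.H831.TMain

/-!
P159 T1, stage 2, row S.T: the energy of the difference, and the proof of `StmtST`.
-/

open MeasureTheory Set Filter Topology
open scoped Real ContDiff

namespace Vale.Agent.P159.T1.S.H831

open Vale.Agent.P159.T1.D Vale.Agent.P159.T1.D.H414 Vale.Agent.P159.T1.H775

variable {Y V' V ρ A B c1 : ℝ} {q n0 r : ℕ}

/-- the difference of the fields -/
noncomputable def df (Y V' V ρ : ℝ) (q n0 : ℕ) (c1 : ℝ) (r : ℕ) (e : Bnd) : ℝ :=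
  Bmain Y V' V q n0 c1 r e - dr (pf Y V' ρ q n0 c1 r) e

theorem Ctx.dr_div (c : Ctx Y V' ρ A B q n0 c1 r) (e : Bnd) :
    dr (tt Y V' ρ q n0 c1 r) e / Y = dr (pf Y V' ρ q n0 c1 r) e := by
  have := c.hY
  rw [dr_tt]; field_simp

theorem Ctx.dr_h (c : Ctx Y V' ρ A B q n0 c1 r) (e : Bnd) :
    |dr (pf Y V' ρ q n0 c1 r) e| ≤ V' / Y := by
  have h1 := c.range (lf e)
  have h2 := c.range (rt e)
  rw [← c.dr_div]
  unfold dr
  rw [abs_div, abs_of_pos c.hY]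
  refine div_le_div_of_nonneg_right ?_ c.hY.le
  rw [abs_le]
  constructor <;> linarith

/-- the bound of the fields -/
noncomputable def Kb (Y V' V : ℝ) (q : ℕ) : ℝ := Kc Y V' q + 2 * Kc Y V q

theorem Kb_nonneg : 0 ≤ Kb Y V' V q := by
  have := Kc_nonneg Y V' q
  have := Kc_nonneg Y V q
  unfold Kb; positivity

theorem Ctx.crude (c : Ctx Y V' ρ A B q n0 c1 r) (e : Bnd) :
    df Y V' V ρ q n0 c1 r e ^ 2 ≤ 2 * (Kb Y V' V q * |gs tc e|) ^ 2 + 2 * (V' / Y) ^ 2 := by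
  have h1 := Bmain_le Y V' V q n0 c1 r e
  have h2 := c.dr_h e
  have h3 : Bmain Y V' V q n0 c1 r e ^ 2 ≤ (Kb Y V' V q * |gs tc e|) ^ 2 := by
    rw [← sq_abs]; exact pow_le_pow_left₀ (abs_nonneg _) h1 2
  have h4 : dr (pf Y V' ρ q n0 c1 r) e ^ 2 ≤ (V' / Y) ^ 2 := by
    rw [← sq_abs]; exact pow_le_pow_left₀ (abs_nonneg _) h2 2
  unfold df
  nlinarith [sq_nonneg (Bmain Y V' V q n0 c1 r e + dr (pf Y V' ρ q n0 c1 r) e)]

theorem Ctx.xi_mid (c : Ctx Y V' ρ A B q n0 c1 r) {x : ℝ} (h1 : 3 * (n0 : ℝ) ≤ x)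
    (h2 : x ≤ c1 * r / 3) :
    xi (Real.log n0) (Real.log (c1 * r) - 1) (Real.log x) = 1 ∧
      deriv (xi (Real.log n0) (Real.log (c1 * r) - 1)) (Real.log x) = 0 := by
  have hn := c.hn
  have he := exp_one_lt_three
  have he0 := Real.exp_pos 1
  have hx : 0 < x := by linarith
  have a1 : Real.log n0 + 1 < Real.log x := by
    rw [log_mul_e (by linarith)]
    exact Real.log_lt_log (by positivity) (by nlinarith)
  have a2 : Real.log x < Real.log (c1 * r) - 1 := by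
    rw [lt_sub_iff_add_lt, log_mul_e hx]
    exact Real.log_lt_log (by positivity) (by nlinarith)
  refine ⟨xi_one a1.le a2.le, ?_⟩
  have : xi (Real.log n0) (Real.log (c1 * r) - 1) =ᶠ[𝓝 (Real.log x)] fun _ => 1 := by
    filter_upwards [Ioo_mem_nhds a1 a2] with y hy
    exact xi_one hy.1.le hy.2.le
  rw [this.deriv_eq]; simp

/-- slope bound -/
noncomputable def K0 (Y V' : ℝ) (q : ℕ) : ℝ := V' / Y / ang q + V' / Y / (2 * π - ang q)

theorem Ctx.mid_aux (c : Ctx Y V' ρ A B q n0 c1 r) {e : Bnd} (he1 : 3 * (n0 : ℝ) ≤ ‖zc e.1‖)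
    (he2 : ‖zc e.1‖ ≤ c1 * r / 3) {k : ℝ}
    (hk : |cf Y V' q e - deriv (tent (ang q) (V' / Y) ρ) (zc e.1).arg| ≤ k) :
    df Y V' V ρ q n0 c1 r e ^ 2 ≤ 2 * k ^ 2 * gs tc e ^ 2 +
      2 * (2 * B + 12 * (A * B)) ^ 2 * (8 * (1 / ‖zc e.1‖ ^ 3)) := by
  have hn := c.hn
  have hP : 12 ≤ ‖zc e.1‖ := by linarith
  have hm : 0 < ‖zc e.1‖ - 2 := by linarith
  have hA := c.hA
  have hB := c.hB
  obtain ⟨hx1, hx2⟩ := c.xi_mid he1 he2
  have e2 := dr_kd c.ad (e := e) hm (by linarith) hx1 hx2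
  have e3 := gs_kd (e := e) hm (by linarith)
  have e1 := Bmain_mid Y V' V q n0 (c1 := c1) (r := r) (by
    have : (2 : ℝ) ≤ n0 := by linarith
    exact_mod_cast this) c.hc1 (e := e) (by linarith) (by linarith)
  have hpf := pow_four_le hP
  have h5 := sq_bound (a := df Y V' V ρ q n0 c1 r e)
    (c := cf Y V' q e) (p := deriv (tent (ang q) (V' / Y) ρ) (zc e.1).arg) (g := gs tc e)
    (k := kd e) (D := dr (pf Y V' ρ q n0 c1 r) e) (B := B) (K0 := k) (E := 12 * (A * B))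
    (m := ‖zc e.1‖ - 2) (by unfold df; rw [e1]) e3 e2 (c.ad.u1 _) hk hm hB (by positivity)
  have h6 : 2 * (2 * B + 12 * (A * B)) ^ 2 / (‖zc e.1‖ - 2) ^ 4 =
      2 * (2 * B + 12 * (A * B)) ^ 2 * (1 / (‖zc e.1‖ - 2) ^ 4) := by ring
  rw [h6] at h5
  have h7 : 2 * (2 * B + 12 * (A * B)) ^ 2 * (1 / (‖zc e.1‖ - 2) ^ 4) ≤
      2 * (2 * B + 12 * (A * B)) ^ 2 * (8 * (1 / ‖zc e.1‖ ^ 3)) := by
    refine mul_le_mul_of_nonneg_left ?_ (by positivity)
    rw [mul_one_div]; exact hpf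
  linarith

open Classical in
theorem Ctx.mid (c : Ctx Y V' ρ A B q n0 c1 r) {e : Bnd} (he1 : 3 * (n0 : ℝ) ≤ ‖zc e.1‖)
    (he2 : ‖zc e.1‖ ≤ c1 * r / 3) :
    df Y V' V ρ q n0 c1 r e ^ 2 ≤
      (if (zc e.1).arg ∈ Wb (ang q) ρ then 2 * K0 Y V' q ^ 2 * gs tc e ^ 2 else 0) +
      2 * (2 * B + 12 * (A * B)) ^ 2 * (8 * (1 / ‖zc e.1‖ ^ 3)) := by
  have hn := c.hn
  by_cases hW : (zc e.1).arg ∈ Wb (ang q) ρ
  · rw [if_pos hW]
    exact c.mid_aux he1 he2 (cf_sub_le (ρ := ρ) c.hq c.hY c.hV e (zc e.1).arg)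
  · rw [if_neg hW, zero_add]
    have hcg := cf_good (Y := Y) (V' := V') c.hq c.hρ e (c.far1 _ (by linarith))
      (c.far2 _ (by linarith)) (by linarith) hW
    have h := c.mid_aux (V := V) he1 he2 (k := 0) (by rw [hcg, sub_self, abs_zero])
    have h8 : 2 * (0 : ℝ) ^ 2 * gs tc e ^ 2 = 0 := by ring
    rw [h8, zero_add] at h
    exact h

/-- bound in the outer window -/
theorem Ctx.high (c : Ctx Y V' ρ A B q n0 c1 r) {e : Bnd} (he : c1 * r / 3 ≤ ‖zc e.1‖) :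
    df Y V' V ρ q n0 c1 r e ^ 2 ≤
      (2 * Kb Y V' V q + 4 * (A * B)) ^ 2 * (1 / ‖zc e.1‖ ^ 2) := by
  have hn := c.hn
  have hL := c.hL
  have hA := c.hA
  have hB := c.hB
  have hP : 12 ≤ ‖zc e.1‖ := by linarith
  have h1 := Bmain_le Y V' V q n0 c1 r e
  have h2 := gs_le (e := e) (m := ‖zc e.1‖ - 2) (by linarith) (by linarith)
  have h3 := dr_le c.ad (e := e) (m := ‖zc e.1‖ - 2) (by linarith) (by linarith)
  have hK : 0 ≤ A * B := mul_nonneg (by linarith) hB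
  have h4 : |df Y V' V ρ q n0 c1 r e| ≤ (2 * Kb Y V' V q + 4 * (A * B)) / ‖zc e.1‖ := by
    unfold df
    refine (abs_sub _ _).trans ?_
    have h5 : 1 / (‖zc e.1‖ - 2) ≤ 2 / ‖zc e.1‖ := by
      rw [div_le_div_iff₀ (by linarith) (by linarith)]; linarith
    have h6 : |dr (pf Y V' ρ q n0 c1 r) e| ≤ 2 * (A * B) * (2 / ‖zc e.1‖) := by
      refine h3.trans ?_
      have : 2 * (A * B) / (‖zc e.1‖ - 2) = 2 * (A * B) * (1 / (‖zc e.1‖ - 2)) := by ring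
      rw [this]
      exact mul_le_mul_of_nonneg_left h5 (by positivity)
    calc _ ≤ Kb Y V' V q * (2 / ‖zc e.1‖) + 2 * (A * B) * (2 / ‖zc e.1‖) :=
          add_le_add (h1.trans (mul_le_mul_of_nonneg_left (h2.trans h5) Kb_nonneg)) h6
      _ = _ := by ring
  rw [← sq_abs]
  refine (pow_le_pow_left₀ (abs_nonneg _) h4 2).trans (le_of_eq ?_)
  rw [div_pow]; ring

theorem Ctx.r_pos (c : Ctx Y V' ρ A B q n0 c1 r) : 1440 ≤ (r : ℝ) := by
  have hn := c.hn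
  have hL := c.hL
  have h0 := c.hc0
  have h1 := c.hc1
  have hr0 : (0 : ℝ) ≤ r := Nat.cast_nonneg r
  nlinarith

theorem Ctx.far (c : Ctx Y V' ρ A B q n0 c1 r) {e : Bnd} (he : (r : ℝ) / 4 + 1 < ‖zc e.1‖) :
    df Y V' V ρ q n0 c1 r e = 0 := by
  have hr := c.r_pos
  have hc1 := c.hc1
  have hr1 : 1 ≤ r := by
    have : (1 : ℝ) ≤ r := by linarith
    exact_mod_cast this
  have h1 := Bmain_far Y V' V q n0 hr1 c.hc0 hc1 he
  have h2 : tt Y V' ρ q n0 c1 r (lf e) = 0 := by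
    by_contra hcon
    have h3 := (c.supp hcon).2.1
    have h4 := (zc_sides e).2.2.1
    nlinarith
  have h3 : tt Y V' ρ q n0 c1 r (rt e) = 0 := by
    by_contra hcon
    have h3 := (c.supp hcon).2.1
    have h4 := (zc_sides e).2.2.2
    nlinarith
  have h4 : dr (pf Y V' ρ q n0 c1 r) e = 0 := by
    rw [← c.dr_div]; unfold dr; rw [h2, h3]; simp
  unfold df
  rw [h1, h4, sub_zero]

/-- the middle window -/
def Mw (n0 : ℕ) (c1 : ℝ) (r : ℕ) (e : Bnd) : Prop :=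
  3 * (n0 : ℝ) ≤ ‖zc e.1‖ ∧ ‖zc e.1‖ ≤ c1 * r / 3

/-- the outer window -/
def Hw (c1 : ℝ) (r : ℕ) (e : Bnd) : Prop :=
  c1 * r / 3 ≤ ‖zc e.1‖ ∧ ‖zc e.1‖ ≤ (r : ℝ) / 4 + 1

open Classical in
theorem Ctx.point (c : Ctx Y V' ρ A B q n0 c1 r) {N0 : ℕ} (hN : (3 * n0 : ℝ) ≤ N0) (e : Bnd) :
    df Y V' V ρ q n0 c1 r e ^ 2 ≤
      (if ‖zc e.1‖ ≤ N0 then df Y V' V ρ q n0 c1 r e ^ 2 else 0) +
      (if Hw c1 r e then (2 * Kb Y V' V q + 4 * (A * B)) ^ 2 * (1 / ‖zc e.1‖ ^ 2) else 0) +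
      (if Mw n0 c1 r e ∧ (zc e.1).arg ∈ Wb (ang q) ρ then
        2 * K0 Y V' q ^ 2 * gs tc e ^ 2 else 0) +
      (if Mw n0 c1 r e then
        2 * (2 * B + 12 * (A * B)) ^ 2 * (8 * (1 / ‖zc e.1‖ ^ 3)) else 0) := by
  have n1 : 0 ≤ (if ‖zc e.1‖ ≤ N0 then df Y V' V ρ q n0 c1 r e ^ 2 else 0) := by
    split_ifs; exacts [sq_nonneg _, le_rfl]
  have n2 : 0 ≤ (if Hw c1 r e then
      (2 * Kb Y V' V q + 4 * (A * B)) ^ 2 * (1 / ‖zc e.1‖ ^ 2) else 0) := by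
    split_ifs; exacts [by positivity, le_rfl]
  have n3 : 0 ≤ (if Mw n0 c1 r e ∧ (zc e.1).arg ∈ Wb (ang q) ρ then
      2 * K0 Y V' q ^ 2 * gs tc e ^ 2 else 0) := by
    split_ifs; exacts [by positivity, le_rfl]
  have n4 : 0 ≤ (if Mw n0 c1 r e then
      2 * (2 * B + 12 * (A * B)) ^ 2 * (8 * (1 / ‖zc e.1‖ ^ 3)) else 0) := by
    split_ifs; exacts [by positivity, le_rfl]
  by_cases c0 : ‖zc e.1‖ ≤ N0
  · rw [if_pos c0]; linarith
  by_cases c2 : Mw n0 c1 r e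
  · have h1 := c.mid (V := V) c2.1 c2.2
    have i4 : (if Mw n0 c1 r e then
        2 * (2 * B + 12 * (A * B)) ^ 2 * (8 * (1 / ‖zc e.1‖ ^ 3)) else 0) =
        2 * (2 * B + 12 * (A * B)) ^ 2 * (8 * (1 / ‖zc e.1‖ ^ 3)) := if_pos c2
    rw [i4]
    by_cases c3 : (zc e.1).arg ∈ Wb (ang q) ρ
    · rw [if_pos c3] at h1
      have i3 : (if Mw n0 c1 r e ∧ (zc e.1).arg ∈ Wb (ang q) ρ then
          2 * K0 Y V' q ^ 2 * gs tc e ^ 2 else 0) = 2 * K0 Y V' q ^ 2 * gs tc e ^ 2 :=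
        if_pos ⟨c2, c3⟩
      rw [i3]
      linarith
    · rw [if_neg c3] at h1
      linarith
  · have c4 : c1 * r / 3 ≤ ‖zc e.1‖ := by
      by_contra hcon
      push Not at hcon
      push Not at c0
      exact c2 ⟨by linarith, hcon.le⟩
    by_cases c5 : ‖zc e.1‖ ≤ (r : ℝ) / 4 + 1
    · have h1 := c.high (V := V) c4
      rw [if_pos (show Hw c1 r e from ⟨c4, c5⟩)]
      linarith
    · push Not at c5
      have h1 := c.far (V := V) c5
      rw [h1] at n1 ⊢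
      simp only [ne_eq, OfNat.ofNat_ne_zero, not_false_eq_true, zero_pow] at n1 ⊢
      linarith

/-- the sum over the box -/
noncomputable def Clow (Y V' V : ℝ) (q N0 : ℕ) : ℝ :=
  ∑ e ∈ Nb N0, (2 * (Kb Y V' V q * |gs tc e|) ^ 2 + 2 * (V' / Y) ^ 2)

theorem low_sum {N0 : ℕ} (S : Finset Bnd) (g : Bnd → ℝ)
    (hg : ∀ e, g e ≤ 2 * (Kb Y V' V q * |gs tc e|) ^ 2 + 2 * (V' / Y) ^ 2) :
    ∑ e ∈ S, (if ‖zc e.1‖ ≤ N0 then g e else 0) ≤ Clow Y V' V q N0 := by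
  rw [← Finset.sum_filter]
  refine (Finset.sum_le_sum fun e _ => hg e).trans ?_
  refine Finset.sum_le_sum_of_subset_of_nonneg ?_ fun e _ _ => by positivity
  intro e he
  exact mem_Nb (Finset.mem_filter.1 he).2

theorem Clow_nonneg (N0 : ℕ) : 0 ≤ Clow Y V' V q N0 := Finset.sum_nonneg fun e _ => by positivity

theorem Ctx.energy (c : Ctx Y V' ρ A B q n0 c1 r) {N0 : ℕ} (hN : (3 * n0 : ℝ) ≤ N0)
    {ε : ℝ} (hε : 16 * π * K0 Y V' q ^ 2 * ρ ≤ ε) (S : Finset Bnd) :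
    ∑ e ∈ S, df Y V' V ρ q n0 c1 r e ^ 2 ≤ ε * Real.log r + (Clow Y V' V q N0 +
      (2 * Kb Y V' V q + 4 * (A * B)) ^ 2 * (32 * Real.log (6 / c1) + 280) +
      (2 * K0 Y V' q ^ 2 * 3000 + 2 * (2 * B + 12 * (A * B)) ^ 2 * 256)) := by
  classical
  have hn := c.hn
  have hL := c.hL
  have hr := c.r_pos
  have hc0 := c.hc0
  have hc1 := c.hc1
  have hr1 : 1 ≤ r := by
    have : (1 : ℝ) ≤ r := by linarith
    exact_mod_cast this
  have hlogr : 0 ≤ Real.log r := Real.log_nonneg (by linarith)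
  refine (Finset.sum_le_sum fun e _ => c.point (V := V) hN e).trans ?_
  rw [Finset.sum_add_distrib, Finset.sum_add_distrib, Finset.sum_add_distrib]
  have s1 := low_sum (Y := Y) (V' := V') (V := V) (q := q) (N0 := N0) S
    (fun e => df Y V' V ρ q n0 c1 r e ^ 2) (fun e => c.crude e)
  have s2 : ∑ e ∈ S, (if Hw c1 r e then
      (2 * Kb Y V' V q + 4 * (A * B)) ^ 2 * (1 / ‖zc e.1‖ ^ 2) else 0) ≤
      (2 * Kb Y V' V q + 4 * (A * B)) ^ 2 * (32 * Real.log (6 / c1) + 280) := by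
    rw [← Finset.sum_filter, ← Finset.mul_sum]
    refine mul_le_mul_of_nonneg_left ?_ (sq_nonneg _)
    have h1 := sum_square (S := S.filter (Hw c1 r)) (n := c1 * r / 3) (R := (r : ℝ) / 4 + 1)
      (by linarith) (by nlinarith) (fun e he => (Finset.mem_filter.1 he).2)
    have h2 : Real.log (((r : ℝ) / 4 + 1 + 2) / (c1 * r / 3 - 2)) ≤ Real.log (6 / c1) := by
      refine Real.log_le_log (div_pos (by linarith) (by linarith)) ?_
      rw [div_le_div_iff₀ (by linarith) hc0]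
      nlinarith
    linarith
  have s3 : ∑ e ∈ S, (if Mw n0 c1 r e ∧ (zc e.1).arg ∈ Wb (ang q) ρ then
      2 * K0 Y V' q ^ 2 * gs tc e ^ 2 else 0) ≤
      2 * K0 Y V' q ^ 2 * (8 * π * ρ * Real.log r + 3000) := by
    rw [← Finset.sum_filter, ← Finset.mul_sum]
    refine mul_le_mul_of_nonneg_left ?_ (by positivity)
    refine sum_bad c.hq c.hρ c.hρ1 hr1 _ (fun e he => ?_) (fun e he => (Finset.mem_filter.1 he).2.2)
    have h1 := (Finset.mem_filter.1 he).2.1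
    exact ⟨by linarith [h1.1], by nlinarith [h1.2]⟩
  have s4 : ∑ e ∈ S, (if Mw n0 c1 r e then
      2 * (2 * B + 12 * (A * B)) ^ 2 * (8 * (1 / ‖zc e.1‖ ^ 3)) else 0) ≤
      2 * (2 * B + 12 * (A * B)) ^ 2 * 256 := by
    rw [← Finset.sum_filter, ← Finset.mul_sum, ← Finset.mul_sum]
    refine mul_le_mul_of_nonneg_left ?_ (by positivity)
    have h1 := sum_cube (S := S.filter (Mw n0 c1 r)) (fun e he => by
      have h2 := (Finset.mem_filter.1 he).2.1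
      linarith)
    linarith
  have s5 : 2 * K0 Y V' q ^ 2 * (8 * π * ρ * Real.log r + 3000) ≤
      ε * Real.log r + 2 * K0 Y V' q ^ 2 * 3000 := by
    have e1 : 2 * K0 Y V' q ^ 2 * (8 * π * ρ * Real.log r + 3000) =
        (16 * π * K0 Y V' q ^ 2 * ρ) * Real.log r + 2 * K0 Y V' q ^ 2 * 3000 := by ring
    rw [e1]
    have := mul_le_mul_of_nonneg_right hε hlogr
    linarith
  linarith

/-- **row S.T** -/
theorem stmtST : StmtST := by
  classical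
  intro Y V' q ε hY hV hq hε
  obtain ⟨ha0, ha1⟩ := ang_le q hq
  have hπ := Real.pi_pos
  have hd2 : ang q < 2 * π := by linarith
  have hdd : 0 < 2 * π - ang q := by linarith
  have hh0 : 0 < V' / Y := div_pos hV hY
  have hK0p : 0 < K0 Y V' q := add_pos (div_pos hh0 ha0) (div_pos hh0 hdd)
  obtain ⟨ρ, hρ, hρ1, hρ2⟩ : ∃ ρ : ℝ, 0 < ρ ∧ ρ ≤ 1 / 4 ∧ 16 * π * K0 Y V' q ^ 2 * ρ ≤ ε := by
    refine ⟨min (1 / 4) (ε / (16 * π * K0 Y V' q ^ 2)), lt_min (by norm_num) (by positivity),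
      min_le_left _ _, ?_⟩
    have h1 : min (1 / 4) (ε / (16 * π * K0 Y V' q ^ 2)) ≤ ε / (16 * π * K0 Y V' q ^ 2) :=
      min_le_right _ _
    rw [le_div_iff₀ (by positivity)] at h1
    linarith
  have hus : ContDiff ℝ ∞ (tent (ang q) (V' / Y) ρ) := tent_contDiff _ _ ρ
  have hsu : tsupport (tent (ang q) (V' / Y) ρ) ⊆ Ioo (-π) π := tent_tsupport ha0 hd2 hρ hρ1
  obtain ⟨A, hA1, hA⟩ := exists_A
  obtain ⟨B, hB, hB0, hB1, hB2⟩ := exists_B hus (hasCompactSupport_of_Ioo hsu)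
  have hKn : 0 ≤ A * B := mul_nonneg (by linarith) hB
  have p1 : 0 < 2 * ρ * ang q := by positivity
  have p2 : 0 < 2 * ρ * (2 * π - ang q) := by positivity
  refine ⟨24 * Y * (A * B) + 1, min (ρ * ang q) (ρ * (2 * π - ang q)),
    ⌈4 / (2 * ρ * (2 * π - ang q)) + 4 / (2 * ρ * ang q) + 20⌉₊, by positivity,
    lt_min (mul_pos hρ ha0) (mul_pos hρ hdd), ?_⟩
  intro n0 hn0 V c1 hc0 hc1
  have hn0' : 4 / (2 * ρ * (2 * π - ang q)) + 4 / (2 * ρ * ang q) + 20 ≤ (n0 : ℝ) :=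
    (Nat.le_ceil _).trans (by exact_mod_cast hn0)
  have q1 : 0 < 4 / (2 * ρ * (2 * π - ang q)) := by positivity
  have q2 : 0 < 4 / (2 * ρ * ang q) := by positivity
  have hn20 : (20 : ℝ) ≤ n0 := by linarith
  have hfar1 : ∀ x : ℝ, (n0 : ℝ) ≤ x → 4 / x ≤ 2 * ρ * (2 * π - ang q) := by
    intro x hx
    rw [div_le_iff₀ (by linarith)]
    have h1 : 4 / (2 * ρ * (2 * π - ang q)) ≤ x := by linarith
    rw [div_le_iff₀ p2] at h1
    linarith
  have hfar2 : ∀ x : ℝ, (n0 : ℝ) ≤ x → 4 / x ≤ 2 * ρ * ang q := by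
    intro x hx
    rw [div_le_iff₀ (by linarith)]
    have h1 : 4 / (2 * ρ * ang q) ≤ x := by linarith
    rw [div_le_iff₀ p1] at h1
    linarith
  set N0 : ℕ := ⌈9 * (n0 : ℝ) / c1⌉₊ + 3 * n0 + 2 with hN0
  have hlogc : 0 ≤ Real.log (6 / c1) := by
    apply Real.log_nonneg
    rw [le_div_iff₀ hc0]; linarith
  have hCl := Clow_nonneg (Y := Y) (V' := V') (V := V) (q := q) N0
  refine ⟨Clow Y V' V q N0 +
      (2 * Kb Y V' V q + 4 * (A * B)) ^ 2 * (32 * Real.log (6 / c1) + 280) +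
      (2 * K0 Y V' q ^ 2 * 3000 + 2 * (2 * B + 12 * (A * B)) ^ 2 * 256), ?_⟩
  intro r hr
  have hr0 : (0 : ℝ) < r := by
    by_contra hcon
    push Not at hcon
    nlinarith
  have hr1 : 1 ≤ r := by
    have : 0 < r := by exact_mod_cast hr0
    omega
  have hr1' : (1 : ℝ) ≤ r := by exact_mod_cast hr1
  have hlogr : 0 ≤ Real.log r := Real.log_nonneg hr1'
  by_cases hL : 9 * (n0 : ℝ) ≤ c1 * r
  · have c : Ctx Y V' ρ A B q n0 c1 r :=
      ⟨hY, hV, hq, hρ, hρ1, hA1, hB, fun a b h0 h1 => adm_xi hus hsu hA hB0 hB1 hB2 h0 h1,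
        hn20, hfar1, hfar2, hc0, hc1, hL⟩
    refine ⟨tt Y V' ρ q n0 c1 r, c.range, ?_, c.slit, c.first, c.second, ?_⟩
    · intro f hf
      obtain ⟨h1, h2, h3⟩ := c.supp hf
      exact ⟨h1, h2, tent_zero ha0 hd2 hρ hρ1 h3⟩
    · intro S
      have hN3 : (3 * n0 : ℝ) ≤ N0 := by
        rw [hN0]; push_cast
        have : (0 : ℝ) ≤ (⌈9 * (n0 : ℝ) / c1⌉₊ : ℝ) := Nat.cast_nonneg _
        linarith
      have h := c.energy (V := V) hN3 hρ2 S
      simp_rw [c.dr_div]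
      exact h
  · push Not at hL
    refine ⟨fun _ => 0, fun f => ⟨le_rfl, hV.le⟩, fun f hf => absurd rfl hf, fun f _ _ => rfl,
      fun e => ?_, fun f v w _ _ => ?_, fun S => ?_⟩
    · have : dr (fun _ : Z2 => (0 : ℝ)) e = 0 := by unfold dr; simp
      rw [this, abs_zero]; positivity
    · simp only [sub_zero, add_zero, abs_zero]; positivity
    · have hz : ∀ e, dr (fun _ : Z2 => (0 : ℝ)) e / Y = 0 := by
        intro e; unfold dr; simp
      simp_rw [hz, sub_zero]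
      have hN : (r : ℝ) / 4 + 1 ≤ N0 := by
        have h1 := Nat.le_ceil (9 * (n0 : ℝ) / c1)
        have h2 : (r : ℝ) ≤ 9 * (n0 : ℝ) / c1 := by
          rw [le_div_iff₀ hc0]; linarith
        rw [hN0]; push_cast
        linarith
      have hpt : ∀ e ∈ S, Bmain Y V' V q n0 c1 r e ^ 2 ≤
          (if ‖zc e.1‖ ≤ N0 then Bmain Y V' V q n0 c1 r e ^ 2 else 0) := by
        intro e _
        by_cases c0 : ‖zc e.1‖ ≤ N0
        · rw [if_pos c0]
        · push Not at c0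
          rw [if_neg (not_le.2 c0), Bmain_far Y V' V q n0 hr1 hc0 hc1 (by linarith)]
          norm_num
      have s1 := low_sum (Y := Y) (V' := V') (V := V) (q := q) (N0 := N0) S
        (fun e => Bmain Y V' V q n0 c1 r e ^ 2) (by
        intro e
        have h1 := Bmain_le Y V' V q n0 c1 r e
        have h3 : Bmain Y V' V q n0 c1 r e ^ 2 ≤ (Kb Y V' V q * |gs tc e|) ^ 2 := by
          rw [← sq_abs]; exact pow_le_pow_left₀ (abs_nonneg _) h1 2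
        have h4 : 0 ≤ (Kb Y V' V q * |gs tc e|) ^ 2 := sq_nonneg _
        have h5 : 0 ≤ (V' / Y) ^ 2 := sq_nonneg _
        linarith)
      have s2 := (Finset.sum_le_sum hpt).trans s1
      have h6 : 0 ≤ (2 * Kb Y V' V q + 4 * (A * B)) ^ 2 * (32 * Real.log (6 / c1) + 280) := by
        positivity
      have h7 : 0 ≤ 2 * K0 Y V' q ^ 2 * 3000 + 2 * (2 * B + 12 * (A * B)) ^ 2 * 256 := by
        positivity
      have h8 : 0 ≤ ε * Real.log r := by positivity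
      linarith

end Vale.Agent.P159.T1.S.H831
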