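import Vale.Agent.P159.T1.S.H831.T

/-!
P159 T1, stage 2, row S.T: proof of `StmtST`.
-/

open MeasureTheory Set Filter Topology
open scoped Real ContDiff

namespace Vale.Agent.P159.T1.S.H831

open Vale.Agent.P159.T1.D Vale.Agent.P159.T1.D.H414 Vale.Agent.P159.T1.H775

/-- the sum of the energy of `log |z|` over the bad angles -/
theorem sum_bad {q : ℕ} (hq : 1 ≤ q) {ρ : ℝ} (hρ : 0 < ρ) (hρ1 : ρ ≤ 1 / 4) {r : ℕ} (hr : 1 ≤ r)
    (S : Finset Bnd) (h : ∀ e ∈ S, 12 ≤ ‖zc e.1‖ ∧ ‖zc e.1‖ ≤ (r : ℝ) / 4 + 1)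
    (hb : ∀ e ∈ S, (zc e.1).arg ∈ Wb (ang q) ρ) :
    ∑ e ∈ S, gs tc e ^ 2 ≤ 8 * π * ρ * Real.log r + 3000 := by
  classical
  obtain ⟨ha0, ha1⟩ := ang_le q hq
  have hπ := Real.pi_pos
  have hπ4 : π ≤ 4 := Real.pi_le_four
  have hdd : 0 < 2 * π - ang q := by linarith
  set d := ang q with hd
  have p1 : 0 < ρ * d := mul_pos hρ ha0
  have p2 : 0 < ρ * (2 * π - d) := mul_pos hρ hdd
  have hterm : ∀ e ∈ S, gs tc e ^ 2 ≤
      (if (zc e.1).arg ∈ Icc (-π) (-π + 2 * ρ * d) then gs tc e ^ 2 else 0) +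
      (if (zc e.1).arg ∈ Icc (-π + d - 2 * ρ * d) (-π + d + 2 * ρ * (2 * π - d))
        then gs tc e ^ 2 else 0) +
      (if (zc e.1).arg ∈ Icc (π - 2 * ρ * (2 * π - d)) π then gs tc e ^ 2 else 0) := by
    intro e he
    have h0 := sq_nonneg (gs tc e)
    rcases hb e he with h1 | h1 | h1
    · rw [if_pos h1]
      split_ifs <;> linarith
    · rw [if_pos h1]
      split_ifs <;> linarith
    · rw [if_pos h1]
      split_ifs <;> linarith
  refine (Finset.sum_le_sum hterm).trans ?_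
  rw [Finset.sum_add_distrib, Finset.sum_add_distrib, ← Finset.sum_filter, ← Finset.sum_filter,
    ← Finset.sum_filter]
  have key : ∀ a b : ℝ, a ≤ b →
      ∑ e ∈ S.filter (fun e => (zc e.1).arg ∈ Icc a b), gs tc e ^ 2 ≤
        (b - a) * Real.log r + (48 * (b - a) + 98 * (2 * 0 + 3)) := by
    intro a b hab
    refine sum_sector hab le_rfl _ (R := (r : ℝ) / 4 + 1) (fun e he => h e (Finset.mem_filter.1 he).1)
      (fun e he => ?_) hr rfl
    have h1 := (Finset.mem_filter.1 he).2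
    rw [zero_div, add_zero, add_zero]
    exact ⟨h1.1, h1.2⟩
  have k1 := key (-π) (-π + 2 * ρ * d) (by nlinarith)
  have k2 := key (-π + d - 2 * ρ * d) (-π + d + 2 * ρ * (2 * π - d)) (by nlinarith)
  have k3 := key (π - 2 * ρ * (2 * π - d)) π (by nlinarith)
  refine (add_le_add (add_le_add k1 k2) k3).trans ?_
  have e1 : (-π + 2 * ρ * d - -π) * Real.log r + (48 * (-π + 2 * ρ * d - -π) + 98 * (2 * 0 + 3)) +
      ((-π + d + 2 * ρ * (2 * π - d) - (-π + d - 2 * ρ * d)) * Real.log r +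
        (48 * (-π + d + 2 * ρ * (2 * π - d) - (-π + d - 2 * ρ * d)) + 98 * (2 * 0 + 3))) +
      ((π - (π - 2 * ρ * (2 * π - d))) * Real.log r +
        (48 * (π - (π - 2 * ρ * (2 * π - d))) + 98 * (2 * 0 + 3))) =
      8 * π * ρ * Real.log r + (384 * (π * ρ) + 882) := by ring
  rw [e1]
  have e2 : π * ρ ≤ 4 * (1 / 4) := mul_le_mul hπ4 hρ1 hρ.le (by norm_num)
  linarith

/-! ### geometry -/

theorem zc_norm_add (f v : Z2) : ‖zc (f + v)‖ ≤ ‖zc f‖ + ‖zc v‖ := by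
  have : zc (f + v) = zc f + zc v := by apply Complex.ext <;> simp [zc]
  rw [this]; exact norm_add_le _ _

theorem zc_e1' : ‖zc (1, 0)‖ = 1 := by
  have : zc (1, 0) = 1 := by apply Complex.ext <;> simp [zc]
  rw [this, norm_one]

theorem zc_e2' : ‖zc (0, 1)‖ = 1 := by
  have : zc (0, 1) = Complex.I := by apply Complex.ext <;> simp [zc]
  rw [this, Complex.norm_I]

theorem zc_e3' : ‖zc (-1, 0)‖ = 1 := by
  have : zc (-1, 0) = -1 := by apply Complex.ext <;> simp [zc]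
  rw [this, norm_neg, norm_one]

theorem zc_e4' : ‖zc (0, -1)‖ = 1 := by
  have : zc (0, -1) = -Complex.I := by apply Complex.ext <;> simp [zc]
  rw [this, norm_neg, Complex.norm_I]

theorem zc_sides (e : Bnd) : ‖zc (lf e)‖ ≤ ‖zc e.1‖ + 1 ∧ ‖zc (rt e)‖ ≤ ‖zc e.1‖ + 1 ∧
    ‖zc e.1‖ ≤ ‖zc (lf e)‖ + 1 ∧ ‖zc e.1‖ ≤ ‖zc (rt e)‖ + 1 := by
  obtain ⟨P, s⟩ := e
  have hz1 := zc_e1'
  have hz2 := zc_e2'
  have hz3 := zc_e3'
  have hz4 := zc_e4'
  cases s
  · have e1 : lf (P, false) = P := rfl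
    have e2 : rt (P, false) = P + (0, -1) := by
      ext <;> simp [rt, sub_eq_add_neg]
    have e3 : P = rt (P, false) + (0, 1) := by
      rw [e2]; ext <;> simp
    have h1 := zc_norm_add P (0, -1)
    have h2 := zc_norm_add (rt (P, false)) (0, 1)
    rw [← e3] at h2
    rw [← e2] at h1
    rw [e1]
    simp only
    refine ⟨by linarith, by linarith, by linarith, by linarith⟩
  · have e1 : rt (P, true) = P := rfl
    have e2 : lf (P, true) = P + (-1, 0) := by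
      ext <;> simp [lf, sub_eq_add_neg]
    have e3 : P = lf (P, true) + (1, 0) := by
      rw [e2]; ext <;> simp
    have h1 := zc_norm_add P (-1, 0)
    have h2 := zc_norm_add (lf (P, true)) (1, 0)
    rw [← e3] at h2
    rw [← e2] at h1
    rw [e1]
    simp only
    refine ⟨by linarith, by linarith, by linarith, by linarith⟩

/-- the angle of the faces of the slit row -/
theorem arg_slit {f : Z2} (hf2 : f.2 = -1) (hf1 : f.1 < 0) (h4 : 4 ≤ ‖zc f‖) :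
    (zc f).arg ≤ -π + 2 / ‖zc f‖ := by
  have a1 : (f.1 : ℝ) < 0 := by exact_mod_cast hf1
  have a2 : (f.2 : ℝ) = -1 := by exact_mod_cast hf2
  have h9 := arg_third (z := zc f) a1 (by simp only [zc]; rw [a2]; norm_num)
  have h10 : ‖zc f‖ ≤ |(f.1 : ℝ)| + |(f.2 : ℝ)| :=
    Complex.norm_le_abs_re_add_abs_im (zc f)
  rw [a2, abs_of_neg a1] at h10
  have h11 : |(-1 : ℝ)| = 1 := by norm_num
  rw [h11] at h10
  have h13 : (zc f).im / (zc f).re = 1 / (-(f.1 : ℝ)) := by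
    simp only [zc]
    rw [a2]
    rw [div_neg, neg_div]
  have h14 : Real.arctan ((zc f).im / (zc f).re) ≤ 1 / (-(f.1 : ℝ)) := by
    rw [h13]
    have h15 := arctan_add_le (x := 0) (δ := 1 / (-(f.1 : ℝ)))
      (div_nonneg zero_le_one (by linarith))
    rw [Real.arctan_zero, zero_add] at h15
    exact h15
  have h16 : 1 / (-(f.1 : ℝ)) ≤ 2 / ‖zc f‖ := by
    rw [div_le_div_iff₀ (by linarith) (by linarith)]
    linarith
  linarith

/-! ### the context -/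

/-- the numbers of the construction -/
structure Ctx (Y V' ρ A B : ℝ) (q n0 : ℕ) (c1 : ℝ) (r : ℕ) : Prop where
  hY : 0 < Y
  hV : 0 < V'
  hq : 1 ≤ q
  hρ : 0 < ρ
  hρ1 : ρ ≤ 1 / 4
  hA : 1 ≤ A
  hB : 0 ≤ B
  adm : ∀ a b : ℝ, 0 < a → a ≤ b → Adm (xi a b) (tent (ang q) (V' / Y) ρ) A B
  hn : (20 : ℝ) ≤ n0
  far1 : ∀ x : ℝ, (n0 : ℝ) ≤ x → 4 / x ≤ 2 * ρ * (2 * π - ang q)
  far2 : ∀ x : ℝ, (n0 : ℝ) ≤ x → 4 / x ≤ 2 * ρ * ang q
  hc0 : 0 < c1
  hc1 : c1 ≤ 1 / 8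
  hL : 9 * (n0 : ℝ) ≤ c1 * r

/-- the lattice function before multiplication with `Y` -/
noncomputable def pf (Y V' ρ : ℝ) (q n0 : ℕ) (c1 : ℝ) (r : ℕ) : Z2 → ℝ :=
  lf' (xi (Real.log n0) (Real.log (c1 * r) - 1)) (tent (ang q) (V' / Y) ρ)

/-- the tent -/
noncomputable def tt (Y V' ρ : ℝ) (q n0 : ℕ) (c1 : ℝ) (r : ℕ) (f : Z2) : ℝ :=
  Y * pf Y V' ρ q n0 c1 r f

variable {Y V' ρ A B c1 : ℝ} {q n0 r : ℕ}

theorem Ctx.a_pos (c : Ctx Y V' ρ A B q n0 c1 r) : 0 < Real.log n0 :=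
  Real.log_pos (by linarith [c.hn])

theorem log_mul_e {x : ℝ} (hx : 0 < x) : Real.log x + 1 = Real.log (x * Real.exp 1) := by
  rw [Real.log_mul hx.ne' (Real.exp_pos 1).ne', Real.log_exp]

theorem exp_one_lt_three : Real.exp 1 < 3 := lt_trans Real.exp_one_lt_d9 (by norm_num)

theorem Ctx.ab (c : Ctx Y V' ρ A B q n0 c1 r) : Real.log n0 ≤ Real.log (c1 * r) - 1 := by
  have h := c.hn
  have h2 := c.hL
  have h3 := exp_one_lt_three
  rw [le_sub_iff_add_le, log_mul_e (by linarith)]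
  exact Real.log_le_log (by positivity) (by nlinarith)

theorem Ctx.ad (c : Ctx Y V' ρ A B q n0 c1 r) :
    Adm (xi (Real.log n0) (Real.log (c1 * r) - 1)) (tent (ang q) (V' / Y) ρ) A B :=
  c.adm _ _ c.a_pos c.ab

theorem Ctx.supp (c : Ctx Y V' ρ A B q n0 c1 r) {f : Z2} (hf : tt Y V' ρ q n0 c1 r f ≠ 0) :
    (n0 : ℝ) ≤ ‖zc f‖ ∧ ‖zc f‖ ≤ c1 * r ∧ tent (ang q) (V' / Y) ρ (zc f).arg ≠ 0 := by
  have hab := c.ab
  have ha0 := c.a_pos
  have hn := c.hn
  have hL := c.hL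
  have h1 : xi (Real.log n0) (Real.log (c1 * r) - 1) (lg (pz f)) ≠ 0 ∧
      tent (ang q) (V' / Y) ρ (ag (pz f)) ≠ 0 := by
    constructor
    · intro hc; apply hf; unfold tt pf lf' pol; rw [hc, zero_mul, mul_zero]
    · intro hc; apply hf; unfold tt pf lf' pol; rw [hc, mul_zero, mul_zero]
  rw [lg_pz] at h1
  have h2 : Real.log n0 < Real.log ‖zc f‖ := by
    by_contra hcon
    push Not at hcon
    exact h1.1 (xi_left hab hcon)
  have h3 : Real.log ‖zc f‖ < Real.log (c1 * r) - 1 + 1 := by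
    by_contra hcon
    push Not at hcon
    exact h1.1 (xi_right hab hcon)
  have h4 : 0 < ‖zc f‖ := by
    by_contra hcon
    push Not at hcon
    have : ‖zc f‖ = 0 := le_antisymm hcon (norm_nonneg _)
    rw [this, Real.log_zero] at h2
    linarith
  refine ⟨?_, ?_, h1.2⟩
  · exact ((Real.log_lt_log_iff (by linarith) h4).1 h2).le
  · rw [sub_add_cancel] at h3
    exact ((Real.log_lt_log_iff h4 (by linarith)).1 h3).le

theorem Ctx.zero (c : Ctx Y V' ρ A B q n0 c1 r) {f : Z2} (hf : ‖zc f‖ < n0) :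
    tt Y V' ρ q n0 c1 r f = 0 := by
  by_contra hcon
  have := (c.supp hcon).1
  linarith

theorem dr_tt (e : Bnd) : dr (tt Y V' ρ q n0 c1 r) e = Y * dr (pf Y V' ρ q n0 c1 r) e := by
  unfold dr tt; ring

theorem Ctx.range (c : Ctx Y V' ρ A B q n0 c1 r) (f : Z2) :
    0 ≤ tt Y V' ρ q n0 c1 r f ∧ tt Y V' ρ q n0 c1 r f ≤ V' := by
  obtain ⟨ha0, ha1⟩ := ang_le q c.hq
  have hπ := Real.pi_pos
  have hh0 : 0 < V' / Y := div_pos c.hV c.hY
  have h1 := xi_nonneg c.ab (lg (pz f))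
  have h2 := xi_le_one (Real.log n0) (Real.log (c1 * r) - 1) (lg (pz f))
  have h3 : 0 ≤ tent (ang q) (V' / Y) ρ (ag (pz f)) := tent_nonneg ha0 (by linarith) hh0 c.hρ _
  have h4 : tent (ang q) (V' / Y) ρ (ag (pz f)) ≤ V' / Y := tent_le hh0 c.hρ _
  have hY := c.hY
  have h5 : Y * (V' / Y) = V' := by field_simp
  unfold tt pf lf' pol
  constructor
  · exact mul_nonneg hY.le (mul_nonneg h1 h3)
  · calc _ ≤ Y * (1 * (V' / Y)) := by
          refine mul_le_mul_of_nonneg_left ?_ hY.le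
          exact mul_le_mul h2 h4 h3 zero_le_one
      _ = V' := by rw [one_mul, h5]

theorem Ctx.slit (c : Ctx Y V' ρ A B q n0 c1 r) (f : Z2) (hf2 : f.2 = -1) (hf1 : f.1 < 0) :
    tt Y V' ρ q n0 c1 r f = 0 := by
  by_contra hcon
  obtain ⟨h1, h2, h3⟩ := c.supp hcon
  obtain ⟨ha0, ha1⟩ := ang_le q c.hq
  have hπ := Real.pi_pos
  have h17 := c.far2 ‖zc f‖ h1
  have h18 : 2 / ‖zc f‖ = 1 / 2 * (4 / ‖zc f‖) := by ring
  have h16 := arg_slit hf2 hf1 (by linarith [c.hn])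
  apply h3
  apply tent_left ha0 (by linarith) c.hρ c.hρ1
  rw [h18] at h16
  linarith

theorem Ctx.first (c : Ctx Y V' ρ A B q n0 c1 r) (e : Bnd) :
    |dr (tt Y V' ρ q n0 c1 r) e| ≤ (24 * Y * (A * B) + 1) / (‖zc e.1‖ + 1) := by
  have hY := c.hY
  have hKn : 0 ≤ A * B := mul_nonneg (by linarith [c.hA]) c.hB
  have hn := c.hn
  by_cases hP : ‖zc e.1‖ < 12
  · have h1 : tt Y V' ρ q n0 c1 r (lf e) = 0 := c.zero (by linarith [(zc_sides e).1])
    have h2 : tt Y V' ρ q n0 c1 r (rt e) = 0 := c.zero (by linarith [(zc_sides e).2.1])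
    unfold dr
    rw [h1, h2, sub_zero, abs_zero]
    positivity
  · push Not at hP
    rw [dr_tt, abs_mul, abs_of_pos hY]
    have h1 := dr_le c.ad (e := e) (m := ‖zc e.1‖ - 2) (by linarith) (by linarith)
    calc Y * |dr (pf Y V' ρ q n0 c1 r) e| ≤ Y * (2 * (A * B) / (‖zc e.1‖ - 2)) :=
          mul_le_mul_of_nonneg_left h1 hY.le
      _ = 2 * (Y * (A * B)) / (‖zc e.1‖ - 2) := by ring
      _ ≤ (24 * Y * (A * B) + 1) / (‖zc e.1‖ + 1) := by
          rw [div_le_div_iff₀ (by linarith) (by linarith)]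
          have h2 : 0 ≤ Y * (A * B) := by positivity
          nlinarith

theorem Ctx.second (c : Ctx Y V' ρ A B q n0 c1 r) (f v w : Z2) (hv : v = (1, 0) ∨ v = (0, 1))
    (hw : w = (1, 0) ∨ w = (0, 1)) :
    |tt Y V' ρ q n0 c1 r (f + v + w) - tt Y V' ρ q n0 c1 r (f + v) -
      tt Y V' ρ q n0 c1 r (f + w) + tt Y V' ρ q n0 c1 r f| ≤
      (24 * Y * (A * B) + 1) / (‖zc f‖ + 1) ^ 2 := by
  have hY := c.hY
  have hKn : 0 ≤ A * B := mul_nonneg (by linarith [c.hA]) c.hB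
  have hn := c.hn
  have hv1 : ‖zc v‖ = 1 := by
    rcases hv with h | h
    · rw [h]; exact zc_e1'
    · rw [h]; exact zc_e2'
  have hw1 : ‖zc w‖ = 1 := by
    rcases hw with h | h
    · rw [h]; exact zc_e1'
    · rw [h]; exact zc_e2'
  by_cases hP : ‖zc f‖ < 12
  · have h1 : tt Y V' ρ q n0 c1 r f = 0 := c.zero (by linarith)
    have h2 : tt Y V' ρ q n0 c1 r (f + v) = 0 := c.zero (by linarith [zc_norm_add f v])
    have h3 : tt Y V' ρ q n0 c1 r (f + w) = 0 := c.zero (by linarith [zc_norm_add f w])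
    have h4 : tt Y V' ρ q n0 c1 r (f + v + w) = 0 :=
      c.zero (by linarith [zc_norm_add f v, zc_norm_add (f + v) w])
    rw [h1, h2, h3, h4]
    simp only [sub_zero, add_zero, abs_zero]
    positivity
  · push Not at hP
    have h1 := second_le c.ad (f := f) hv hw (m := ‖zc f‖ - 2) (by linarith) (by linarith)
    have e1 : tt Y V' ρ q n0 c1 r (f + v + w) - tt Y V' ρ q n0 c1 r (f + v) -
        tt Y V' ρ q n0 c1 r (f + w) + tt Y V' ρ q n0 c1 r f =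
        Y * (pf Y V' ρ q n0 c1 r (f + v + w) - pf Y V' ρ q n0 c1 r (f + v) -
          pf Y V' ρ q n0 c1 r (f + w) + pf Y V' ρ q n0 c1 r f) := by
      unfold tt; ring
    rw [e1, abs_mul, abs_of_pos hY]
    have h2 : 0 ≤ Y * (A * B) := by positivity
    have h3 : (‖zc f‖ + 1) ^ 2 ≤ 4 * (‖zc f‖ - 2) ^ 2 := by nlinarith
    calc _ ≤ Y * (6 * (A * B) / (‖zc f‖ - 2) ^ 2) := mul_le_mul_of_nonneg_left h1 hY.le
      _ = 6 * (Y * (A * B)) / (‖zc f‖ - 2) ^ 2 := by ring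
      _ ≤ (24 * Y * (A * B) + 1) / (‖zc f‖ + 1) ^ 2 := by
          rw [div_le_div_iff₀ (pow_pos (by linarith) 2) (by positivity)]
          calc 6 * (Y * (A * B)) * (‖zc f‖ + 1) ^ 2 ≤
                6 * (Y * (A * B)) * (4 * (‖zc f‖ - 2) ^ 2) :=
                mul_le_mul_of_nonneg_left h3 (by positivity)
            _ = 24 * Y * (A * B) * (‖zc f‖ - 2) ^ 2 := by ring
            _ ≤ _ := by nlinarith [sq_nonneg (‖zc f‖ - 2)]

end Vale.Agent.P159.T1.S.H831
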